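import Vale.Agent.P030.H265.FrameAlg

/-!
# P030, route N, row N8 (2): transitions between frames with constant relation of the flat matrices

`P = L * P'` (flat matrices at a point), `B`, `B'` the constants of the two cells, `M` the constant
matrix with `B * L = M * B'` (rows `0..5`, the last two columns of `M` = the remainder in the
`K`-rows) and row `6` of `M` = the `K`-line of `B` through `L`.
-/

open Matrix

namespace Vale.Agent.P030.H639

open Vale.Agent.P030.H265

noncomputable section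

/-- the constant relation -/
structure Rel (B L B' M : Matrix (Fin 8) (Fin 8) ℂ) : Prop where
  lt : ∀ b : Fin 8, b < 6 → ∀ i : Fin 8,
    ∑ k, B b k * L k i = (∑ c : Fin 8, if c < 6 then M b c * B' c i else 0) +
      (if i = 6 then M b 6 else if i = 7 then M b 7 else 0)
  six : ∀ i : Fin 8, (i = 6 ∨ i = 7) → B 6 6 * L 6 i + B 6 7 * L 7 i = M 6 i
  low : ∀ j : Fin 8, j < 6 → L 6 j = 0 ∧ L 7 j = 0

/-- the coordinates of row `b` in the second frame -/
def tr (P' B' M : Matrix (Fin 8) (Fin 8) ℂ) : Matrix (Fin 8) (Fin 8) ℂ := fun b =>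
  if b = 7 then Pi.single 7 1
  else if b = 6 then Pi.single 6 1 + (kT P' (M 6 6) (M 6 7) / kF P' (M 6 6) (M 6 7) -
    kT P' (B' 6 6) (B' 6 7) / kF P' (B' 6 6) (B' 6 7)) • Pi.single 7 1
  else coo P' B' (M b) (M b 6) (M b 7)

theorem sum6 {L : Matrix (Fin 8) (Fin 8) ℂ} {i : Fin 8} (h : ∀ j : Fin 8, j < 6 → L i j = 0)
    (x : Fin 8 → ℂ) : ∑ k, L i k * x k = L i 6 * x 6 + L i 7 * x 7 := by
  rw [Fin.sum_univ_eight]
  rw [h 0 (by decide), h 1 (by decide), h 2 (by decide), h 3 (by decide), h 4 (by decide),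
    h 5 (by decide)]
  ring

theorem kF_rel {B L B' M P P' : Matrix (Fin 8) (Fin 8) ℂ} (hR : Rel B L B' M)
    (hL : P = L * P') : kF P (B 6 6) (B 6 7) = kF P' (M 6 6) (M 6 7) := by
  have h6 : P 6 6 = L 6 6 * P' 6 6 + L 6 7 * P' 7 6 := by
    rw [hL, Matrix.mul_apply]
    exact sum6 (fun j hj => (hR.low j hj).1) fun k => P' k 6
  have h7 : P 7 6 = L 7 6 * P' 6 6 + L 7 7 * P' 7 6 := by
    rw [hL, Matrix.mul_apply]
    exact sum6 (fun j hj => (hR.low j hj).2) fun k => P' k 6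
  have e6 := hR.six 6 (Or.inl rfl)
  have e7 := hR.six 7 (Or.inr rfl)
  unfold kF
  rw [h6, h7, ← e6, ← e7]
  ring

theorem kT_rel {B L B' M P P' : Matrix (Fin 8) (Fin 8) ℂ} (hR : Rel B L B' M)
    (hL : P = L * P') : kT P (B 6 6) (B 6 7) = kT P' (M 6 6) (M 6 7) := by
  have h6 : P 6 7 = L 6 6 * P' 6 7 + L 6 7 * P' 7 7 := by
    rw [hL, Matrix.mul_apply]
    exact sum6 (fun j hj => (hR.low j hj).1) fun k => P' k 7
  have h7 : P 7 7 = L 7 6 * P' 6 7 + L 7 7 * P' 7 7 := by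
    rw [hL, Matrix.mul_apply]
    exact sum6 (fun j hj => (hR.low j hj).2) fun k => P' k 7
  have e6 := hR.six 6 (Or.inl rfl)
  have e7 := hR.six 7 (Or.inr rfl)
  unfold kT
  rw [h6, h7, ← e6, ← e7]
  ring

/-- **the transition** -/
theorem frm_tr {B L B' M P P' : Matrix (Fin 8) (Fin 8) ℂ} (hP' : Adap P') (hR : Rel B L B' M)
    (hL : P = L * P') (b : Fin 8) : frm P B b = tr P' B' M b ᵥ* frm P' B' := by
  by_cases h7 : b = 7
  · subst h7
    rw [frm_seven]
    have h1 : tr P' B' M 7 = Pi.single 7 1 := by simp [tr]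
    rw [h1, Matrix.single_one_vecMul]
    exact (frm_seven P' B').symm
  by_cases h6 : b = 6
  · subst h6
    rw [frm_six]
    have h1 : tr P' B' M 6 = Pi.single 6 1 + (kT P' (M 6 6) (M 6 7) / kF P' (M 6 6) (M 6 7) -
        kT P' (B' 6 6) (B' 6 7) / kF P' (B' 6 6) (B' 6 7)) • Pi.single 7 1 := by
      have h : (6 : Fin 8) ≠ 7 := by decide
      simp [tr, h]
    rw [h1, Matrix.add_vecMul, Matrix.smul_vecMul, Matrix.single_one_vecMul,
      Matrix.single_one_vecMul, Matrix.row_apply', Matrix.row_apply', frm_six, frm_seven,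
      kF_rel hR hL, kT_rel hR hL]
    module
  · have hb : b < 6 := by
      have := b.isLt
      omega
    have h1 : tr P' B' M b = coo P' B' (M b) (M b 6) (M b 7) := by
      simp [tr, h6, h7]
    rw [h1]
    rw [← expand_flat (β := fun i => ∑ k, B b k * L k i) hP' ?_ ?_ ?_]
    · funext j
      rw [frm_lt hb, hL]
      simp_rw [Matrix.mul_apply, Finset.mul_sum, Finset.sum_mul]
      rw [Finset.sum_comm]
      refine Finset.sum_congr rfl fun i _ => Finset.sum_congr rfl fun k _ => ?_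
      ring
    · intro i hi
      have h6' : i ≠ 6 := hi.ne
      have h7' : i ≠ 7 := by rintro rfl; exact absurd hi (by decide)
      rw [hR.lt b hb i, if_neg h6', if_neg h7', add_zero]
    · rw [hR.lt b hb 6, if_pos rfl]
    · have h : (7 : Fin 8) ≠ 6 := by decide
      rw [hR.lt b hb 7, if_neg h, if_pos rfl]

theorem det_frm {P B : Matrix (Fin 8) (Fin 8) ℂ} (hP : Adap P) (hB : Cst B) :
    (frm P B).det = 1 := by
  obtain ⟨h1, h2⟩ := frm_unitri hP hB
  rw [Matrix.det_of_upperTriangular (fun i j hij => h1 i j hij)]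
  exact Finset.prod_eq_one fun i _ => h2 i

theorem frm_mul_inv {B L B' M P P' : Matrix (Fin 8) (Fin 8) ℂ} (hP' : Adap P') (hB' : Cst B')
    (hR : Rel B L B' M) (hL : P = L * P') (b : Fin 8) :
    frm P B b ᵥ* (frm P' B')⁻¹ = tr P' B' M b := by
  refine expand_unique ?_ (frm_tr hP' hR hL b)
  rw [det_frm hP' hB']
  exact isUnit_one

/-- the zero pattern of `tr` from the constants -/
def Zr (M B' : Matrix (Fin 8) (Fin 8) ℂ) (b c : Fin 8) : Prop :=
  if b = 7 then c ≠ 7
  else if b = 6 then c < 6 ∨ (c = 7 ∧ M 6 6 * B' 6 7 = M 6 7 * B' 6 6)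
  else if c = 7 then M b 6 * B' 6 7 = M b 7 * B' 6 6
  else if c = 6 then M b 6 = 0 ∧ M b 7 = 0
  else M b c = 0

theorem tr_zero {B' M P' : Matrix (Fin 8) (Fin 8) ℂ} (hk' : kF P' (B' 6 6) (B' 6 7) ≠ 0)
    (hk : kF P' (M 6 6) (M 6 7) ≠ 0) {b c : Fin 8} (h : Zr M B' b c) : tr P' B' M b c = 0 := by
  unfold Zr at h
  by_cases h7 : b = 7
  · subst h7
    rw [if_pos rfl] at h
    have h1 : tr P' B' M 7 = Pi.single 7 1 := by simp [tr]
    rw [h1]
    exact Pi.single_eq_of_ne h _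
  rw [if_neg h7] at h
  by_cases h6 : b = 6
  · subst h6
    rw [if_pos rfl] at h
    have h1 : tr P' B' M 6 = Pi.single 6 1 + (kT P' (M 6 6) (M 6 7) / kF P' (M 6 6) (M 6 7) -
        kT P' (B' 6 6) (B' 6 7) / kF P' (B' 6 6) (B' 6 7)) • Pi.single 7 1 := by
      have h : (6 : Fin 8) ≠ 7 := by decide
      simp [tr, h]
    rw [h1]
    rcases h with h | ⟨rfl, h⟩
    · have e1 : c ≠ 6 := h.ne
      have e2 : c ≠ 7 := by rintro rfl; exact absurd h (by decide)
      simp [e1, e2]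
    · have e : (7 : Fin 8) ≠ 6 := by decide
      have h2 : kT P' (M 6 6) (M 6 7) / kF P' (M 6 6) (M 6 7) -
          kT P' (B' 6 6) (B' 6 7) / kF P' (B' 6 6) (B' 6 7) = 0 := by
        rw [div_sub_div _ _ hk hk', div_eq_zero_iff]
        left
        unfold kT kF
        linear_combination (P' 6 6 * P' 7 7 - P' 7 6 * P' 6 7) * (-1 : ℂ) * h
      rw [h2]
      simp [e]
  rw [if_neg h6] at h
  have h1 : tr P' B' M b = coo P' B' (M b) (M b 6) (M b 7) := by
    simp [tr, h6, h7]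
  rw [h1]
  by_cases hc7 : c = 7
  · subst hc7
    rw [if_pos rfl] at h
    simp only [coo, if_true]
    rw [mul_div_assoc', sub_eq_zero, eq_div_iff hk']
    unfold kT kF
    linear_combination (P' 6 6 * P' 7 7 - P' 7 6 * P' 6 7) * (-1 : ℂ) * h
  rw [if_neg hc7] at h
  by_cases hc6 : c = 6
  · subst hc6
    rw [if_pos rfl] at h
    have e : (6 : Fin 8) ≠ 7 := by decide
    simp only [coo, if_neg e, if_true, kF, h.1, h.2]
    ring
  · rw [if_neg hc6] at h
    simp only [coo, if_neg hc7, if_neg hc6]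
    exact h

/-- **zero pattern of the transition** -/
theorem trans_zero {B L B' M P P' : Matrix (Fin 8) (Fin 8) ℂ} (hP' : Adap P') (hB' : Cst B')
    (hR : Rel B L B' M) (hL : P = L * P') (hk : kF P (B 6 6) (B 6 7) ≠ 0)
    (hk' : kF P' (B' 6 6) (B' 6 7) ≠ 0) {b c : Fin 8} (h : Zr M B' b c) :
    (frm P B b ᵥ* (frm P' B')⁻¹) c = 0 := by
  rw [frm_mul_inv hP' hB' hR hL]
  exact tr_zero hk' (by rwa [kF_rel hR hL] at hk) h

/-! ### mirror frames -/

/-- entrywise conjugation -/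
def cj (P : Matrix (Fin 8) (Fin 8) ℂ) : Matrix (Fin 8) (Fin 8) ℂ := P.map (starRingEnd ℂ)

theorem cj_apply (P : Matrix (Fin 8) (Fin 8) ℂ) (i j : Fin 8) :
    cj P i j = (starRingEnd ℂ) (P i j) := rfl

theorem cj_cj (P : Matrix (Fin 8) (Fin 8) ℂ) : cj (cj P) = P := by
  ext i j; simp [cj_apply]

theorem cj_mul (P Q : Matrix (Fin 8) (Fin 8) ℂ) : cj (P * Q) = cj P * cj Q := by
  ext i j
  simp only [cj_apply, Matrix.mul_apply, map_sum, map_mul]

theorem kF_cj (P : Matrix (Fin 8) (Fin 8) ℂ) (α β : ℂ) :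
    kF (cj P) ((starRingEnd ℂ) α) ((starRingEnd ℂ) β) = (starRingEnd ℂ) (kF P α β) := by
  simp only [kF, cj_apply, map_add, map_mul]

theorem kT_cj (P : Matrix (Fin 8) (Fin 8) ℂ) (α β : ℂ) :
    kT (cj P) ((starRingEnd ℂ) α) ((starRingEnd ℂ) β) = (starRingEnd ℂ) (kT P α β) := by
  simp only [kT, cj_apply, map_add, map_mul]

theorem frm_cj (P B : Matrix (Fin 8) (Fin 8) ℂ) : frm (cj P) (cj B) = cj (frm P B) := by
  ext b c
  rw [cj_apply]
  by_cases h7 : b = 7
  · subst h7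
    rw [frm_seven, frm_seven]
    by_cases hc : c = 7
    · subst hc; simp
    · simp [hc]
  by_cases h6 : b = 6
  · subst h6
    rw [frm_six, frm_six]
    simp only [cj_apply B, kF_cj, kT_cj]
    by_cases hc : c = 7
    · subst hc
      have e : (7 : Fin 8) ≠ 6 := by decide
      simp [e]
    · by_cases hc6 : c = 6
      · subst hc6
        have e : (6 : Fin 8) ≠ 7 := by decide
        simp [e]
      · simp [hc, hc6]
  · have hb : b < 6 := by
      have := b.isLt
      omega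
    rw [frm_lt hb, frm_lt hb, map_sum]
    exact Finset.sum_congr rfl fun i _ => by rw [cj_apply, cj_apply, map_mul]

theorem adap_cj {P : Matrix (Fin 8) (Fin 8) ℂ} (h : Adap P) : Adap (cj P) := by
  obtain ⟨h1, h2, h3, h4⟩ := h
  refine ⟨fun i j hi hj => ?_, fun i hi => ?_, fun j hj => ?_, fun j hj => ?_⟩
  · rw [cj_apply, h1 i j hi hj, map_zero]
  · rw [cj_apply, h2 i hi, map_one]
  · rw [cj_apply, h3 j hj, map_zero]
  · rw [cj_apply, h4 j hj, map_zero]

theorem cst_cj {B : Matrix (Fin 8) (Fin 8) ℂ} (h : Cst B) : Cst (cj B) := by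
  obtain ⟨h1, h2, h3⟩ := h
  refine ⟨fun i j hi hj => ?_, fun i hi => ?_, fun j hj => ?_⟩
  · rw [cj_apply, h1 i j hi hj, map_zero]
  · rw [cj_apply, h2 i hi, map_one]
  · rw [cj_apply, h3 j hj, map_zero]

end

end Vale.Agent.P030.H639
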