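import Vale.Agent.P030.AR.Flat
import Vale.Agent.P030.H787.PGVec

/-!
# P030, route N, row N8 (1): the constant matrix of the logarithm at the four cusps

`E c T` : flat vectors = `E c T` * log-free parts (`gl c 0 t`), independent of `t`; reflection of the
log-free parts.
-/

open Matrix

namespace Vale.Agent.P030.H639

open Vale.Agent.P030.AR Vale.Agent.P030.H787

set_option linter.unusedSimpArgs false
set_option linter.unreachableTactic false
set_option linter.unusedTactic false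

noncomputable section

/-- the constant matrix of the logarithm -/
def E : Fin 4 → ℂ → Matrix (Fin 8) (Fin 8) ℂ
  | 0, T => !![1, 0, 0, 0, 0, 0, 0, 0;
      0, 1, 0, 0, 0, 0, 0, 0;
      0, 0, 1, T, 0, 0, 0, 0;
      0, 0, 0, 1, 0, 0, 0, 0;
      0, 0, 0, 0, 1, 0, 0, 0;
      0, 0, 0, 0, 0, 1, 0, 0;
      0, 0, 0, 0, 0, 0, 1, 0;
      0, 0, 0, 0, 0, 0, -(2 / pc * T), 1]
  | 1, T => !![1, 0, 0, 0, 0, 0, 0, 0;
      0, 1, 0, 0, T, 0, 0, 0;
      0, 0, 1, 0, T, 0, 0, 0;
      0, 0, 0, 1, 0, 0, 0, 0;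
      0, 0, 0, 0, 1, 0, 0, 0;
      0, 0, 0, 0, 0, 1, 0, 0;
      0, 0, 0, 0, 0, 0, 1 - 2 * Complex.I / pc * T, -(1 / pc * T);
      0, 0, 0, 0, 0, 0, -(4 / pc * T), 1 + 2 * Complex.I / pc * T]
  | 2, T => !![1, 0, T, -(Complex.I * pc * T) - T ^ 2 / 2,
        -((l2 / 2 + Complex.I * pc) * T) - T ^ 2 / 2, l2 / 2 * T + T ^ 2 / 2,
        -(T / 4), Complex.I * T / 4;
      0, 1, 0, 0, -(T / 2), T / 2, 0, 0;
      0, 0, 1, -T, -T, T, 0, 0;
      0, 0, 0, 1, 0, 0, 0, 0;
      0, 0, 0, 0, 1, 0, 0, 0;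
      0, 0, 0, 0, 0, 1, 0, 0;
      0, 0, 0, 0, 0, 0, 1 - 2 * Complex.I / pc * T, -(2 / pc * T);
      0, 0, 0, 0, 0, 0, -(2 / pc * T), 1 + 2 * Complex.I / pc * T]
  | 3, T => !![1, 0, -T, 0, l2 / 2 * T, -(l2 / 2 * T) + T ^ 2 / 2, T / 4, -(T ^ 2 / (8 * pc));
      0, 1, 0, 0, -(T / 2), -(T / 2), 0, 0;
      0, 0, 1, 0, 0, -T, 0, 0;
      0, 0, 0, 1, 0, 0, 0, 0;
      0, 0, 0, 0, 1, 0, 0, 0;
      0, 0, 0, 0, 0, 1, 0, 0;
      0, 0, 0, 0, 0, 0, 1, -(1 / pc * T);
      0, 0, 0, 0, 0, 0, 0, 1]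

theorem Pm_eq0 (T t : ℂ) (i j : Fin 8) : Pm 0 T t i j = (E 0 T * Pm 0 0 t) i j := by
  have hp := pc_ne
  have hI : Complex.I ^ 2 = -1 := Complex.I_sq
  have hI3 : Complex.I ^ 3 = -Complex.I := by rw [pow_succ, hI]; ring
  have hI4 : Complex.I ^ 4 = 1 := by rw [show (4 : ℕ) = 2 * 2 from rfl, pow_mul, hI]; ring
  revert j
  fin_cases i <;> intro j <;> fin_cases j <;>
    simp [E, Pm, Matrix.mul_apply, Fin.sum_univ_eight]
  all_goals first
    | ring1
    | (field_simp; done)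
    | (field_simp; ring1)
    | (field_simp; ring_nf; simp only [hI, hI3, hI4]; ring1)
    | (ring_nf; simp only [hI, hI3, hI4]; ring1)

theorem Pm_eq1 (T t : ℂ) (i j : Fin 8) : Pm 1 T t i j = (E 1 T * Pm 1 0 t) i j := by
  have hp := pc_ne
  have hI : Complex.I ^ 2 = -1 := Complex.I_sq
  have hI3 : Complex.I ^ 3 = -Complex.I := by rw [pow_succ, hI]; ring
  have hI4 : Complex.I ^ 4 = 1 := by rw [show (4 : ℕ) = 2 * 2 from rfl, pow_mul, hI]; ring
  revert j
  fin_cases i <;> intro j <;> fin_cases j <;>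
    simp [E, Pm, Matrix.mul_apply, Fin.sum_univ_eight]
  all_goals first
    | ring1
    | (field_simp; done)
    | (field_simp; ring1)
    | (field_simp; ring_nf; simp only [hI, hI3, hI4]; ring1)
    | (ring_nf; simp only [hI, hI3, hI4]; ring1)

theorem Pm_eq2 (T t : ℂ) (i j : Fin 8) : Pm 2 T t i j = (E 2 T * Pm 2 0 t) i j := by
  have hp := pc_ne
  have hI : Complex.I ^ 2 = -1 := Complex.I_sq
  have hI3 : Complex.I ^ 3 = -Complex.I := by rw [pow_succ, hI]; ring
  have hI4 : Complex.I ^ 4 = 1 := by rw [show (4 : ℕ) = 2 * 2 from rfl, pow_mul, hI]; ring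
  revert j
  fin_cases i <;> intro j <;> fin_cases j <;>
    simp [E, Pm, Matrix.mul_apply, Fin.sum_univ_eight]
  all_goals first
    | ring1
    | (field_simp; done)
    | (field_simp; ring1)
    | (field_simp; ring_nf; simp only [hI, hI3, hI4]; ring1)
    | (ring_nf; simp only [hI, hI3, hI4]; ring1)

theorem Pm_eq3 (T t : ℂ) (i j : Fin 8) : Pm 3 T t i j = (E 3 T * Pm 3 0 t) i j := by
  have hp := pc_ne
  have hI : Complex.I ^ 2 = -1 := Complex.I_sq
  have hI3 : Complex.I ^ 3 = -Complex.I := by rw [pow_succ, hI]; ring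
  have hI4 : Complex.I ^ 4 = 1 := by rw [show (4 : ℕ) = 2 * 2 from rfl, pow_mul, hI]; ring
  revert j
  fin_cases i <;> intro j <;> fin_cases j <;>
    simp [E, Pm, Matrix.mul_apply, Fin.sum_univ_eight]
  all_goals first
    | ring1
    | (field_simp; done)
    | (field_simp; ring1)
    | (field_simp; ring_nf; simp only [hI, hI3, hI4]; ring1)
    | (ring_nf; simp only [hI, hI3, hI4]; ring1)

/-- the logarithm enters through `E` only -/
theorem Pm_eq (c : Fin 4) (T t : ℂ) : Pm c T t = E c T * Pm c 0 t := by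
  ext i j
  fin_cases c
  · exact Pm_eq0 T t i j
  · exact Pm_eq1 T t i j
  · exact Pm_eq2 T t i j
  · exact Pm_eq3 T t i j

theorem E_zero (c : Fin 4) : E c 0 = 1 := by
  ext i j
  revert j
  fin_cases c <;> fin_cases i <;> intro j <;> fin_cases j <;> simp [E, Matrix.one_apply]

theorem E_add0 (S T : ℂ) (i j : Fin 8) : E 0 (S + T) i j = (E 0 S * E 0 T) i j := by
  have hp := pc_ne
  have hI : Complex.I ^ 2 = -1 := Complex.I_sq
  have hI3 : Complex.I ^ 3 = -Complex.I := by rw [pow_succ, hI]; ring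
  have hI4 : Complex.I ^ 4 = 1 := by rw [show (4 : ℕ) = 2 * 2 from rfl, pow_mul, hI]; ring
  revert j
  fin_cases i <;> intro j <;> fin_cases j <;>
    simp [E, Matrix.mul_apply, Fin.sum_univ_eight]
  all_goals first
    | ring1
    | (field_simp; done)
    | (field_simp; ring1)
    | (field_simp; ring_nf; simp only [hI, hI3, hI4]; ring1)
    | (ring_nf; simp only [hI, hI3, hI4]; ring1)

theorem E_add1 (S T : ℂ) (i j : Fin 8) : E 1 (S + T) i j = (E 1 S * E 1 T) i j := by
  have hp := pc_ne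
  have hI : Complex.I ^ 2 = -1 := Complex.I_sq
  have hI3 : Complex.I ^ 3 = -Complex.I := by rw [pow_succ, hI]; ring
  have hI4 : Complex.I ^ 4 = 1 := by rw [show (4 : ℕ) = 2 * 2 from rfl, pow_mul, hI]; ring
  revert j
  fin_cases i <;> intro j <;> fin_cases j <;>
    simp [E, Matrix.mul_apply, Fin.sum_univ_eight]
  all_goals first
    | ring1
    | (field_simp; done)
    | (field_simp; ring1)
    | (field_simp; ring_nf; simp only [hI, hI3, hI4]; ring1)
    | (ring_nf; simp only [hI, hI3, hI4]; ring1)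

theorem E_add2 (S T : ℂ) (i j : Fin 8) : E 2 (S + T) i j = (E 2 S * E 2 T) i j := by
  have hp := pc_ne
  have hI : Complex.I ^ 2 = -1 := Complex.I_sq
  have hI3 : Complex.I ^ 3 = -Complex.I := by rw [pow_succ, hI]; ring
  have hI4 : Complex.I ^ 4 = 1 := by rw [show (4 : ℕ) = 2 * 2 from rfl, pow_mul, hI]; ring
  revert j
  fin_cases i <;> intro j <;> fin_cases j <;>
    simp [E, Matrix.mul_apply, Fin.sum_univ_eight]
  all_goals first
    | ring1
    | (field_simp; done)
    | (field_simp; ring1)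
    | (field_simp; ring_nf; simp only [hI, hI3, hI4]; ring1)
    | (ring_nf; simp only [hI, hI3, hI4]; ring1)

theorem E_add3 (S T : ℂ) (i j : Fin 8) : E 3 (S + T) i j = (E 3 S * E 3 T) i j := by
  have hp := pc_ne
  have hI : Complex.I ^ 2 = -1 := Complex.I_sq
  have hI3 : Complex.I ^ 3 = -Complex.I := by rw [pow_succ, hI]; ring
  have hI4 : Complex.I ^ 4 = 1 := by rw [show (4 : ℕ) = 2 * 2 from rfl, pow_mul, hI]; ring
  revert j
  fin_cases i <;> intro j <;> fin_cases j <;>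
    simp [E, Matrix.mul_apply, Fin.sum_univ_eight]
  all_goals first
    | ring1
    | (field_simp; done)
    | (field_simp; ring1)
    | (field_simp; ring_nf; simp only [hI, hI3, hI4]; ring1)
    | (ring_nf; simp only [hI, hI3, hI4]; ring1)

theorem E_add (c : Fin 4) (S T : ℂ) : E c (S + T) = E c S * E c T := by
  ext i j
  fin_cases c
  · exact E_add0 S T i j
  · exact E_add1 S T i j
  · exact E_add2 S T i j
  · exact E_add3 S T i j

/-- the flat vectors from their log-free parts -/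
theorem gl_E (c : Fin 4) (T : ℂ) {t : ℂ} (ht : ‖t‖ < 1) (ht0 : t ≠ 0) (i : Fin 8) :
    gl c T t i = ∑ k, E c T i k • gl c 0 t k := by
  simp_rw [gl_eq c _ ht ht0, Finset.smul_sum, smul_smul]
  rw [Finset.sum_comm]
  refine Finset.sum_congr rfl fun m _ => ?_
  rw [← Finset.sum_smul, Pm_eq c T t, Matrix.mul_apply]

end

end Vale.Agent.P030.H639
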