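import Vale.Agent.P030.H462.FhDef
import Vale.Agent.P030.H954.Func

/-!
# P030: the real asymptotic of the double integral at the cusp `c3`
-/

open MeasureTheory Set Filter Topology

namespace Vale.Agent.P030.H639

open Vale.Agent.P030.H462 Real

/-- `Lam y = - Li2 (-y) = ∫_0^y log (1 + t) / t dt` -/
noncomputable def Lam (y : ℝ) : ℝ := (-H954.Li2 (-(y : ℂ))).re

theorem neg_mem_Om {y : ℝ} (hy : 0 ≤ y) : (-(y : ℂ)) ∈ H954.Om := by
  rw [H954.mem_Om]
  left
  simp only [Complex.neg_re, Complex.ofReal_re]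
  linarith

theorem hasDerivAt_Lam' {y : ℝ} (hy : 0 ≤ y) : HasDerivAt Lam (H954.qL (-(y : ℂ))).re y := by
  have h1 := (H954.hasDerivAt_Li2' (neg_mem_Om hy)).comp (y : ℂ) (hasDerivAt_neg (y : ℂ))
  have h2 := h1.neg.real_of_complex
  refine h2.congr_deriv ?_
  simp

theorem hasDerivAt_Lam {y : ℝ} (hy : 0 < y) : HasDerivAt Lam (log (1 + y) / y) y := by
  refine (hasDerivAt_Lam' hy.le).congr_deriv ?_
  have h0 : (-(y : ℂ)) ≠ 0 := by
    rw [neg_ne_zero]
    exact_mod_cast hy.ne'
  rw [H954.qL_of_ne h0, H954.Lg]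
  have h1 : (1 - -(y : ℂ)) = ((1 + y : ℝ) : ℂ) := by push_cast; ring
  rw [h1, ← Complex.ofReal_log (by linarith), neg_div_neg_eq, ← Complex.ofReal_div,
    Complex.ofReal_re]

theorem contAt_Lam {y : ℝ} (hy : 0 ≤ y) : ContinuousAt Lam y := (hasDerivAt_Lam' hy).continuousAt

theorem Lam_zero : Lam 0 = 0 := by simp [Lam]

theorem Lam_one : Lam 1 = π ^ 2 / 12 := by
  rw [Lam, Complex.ofReal_one, H954.Li2_neg_one, neg_neg]
  have : ((π : ℂ) ^ 2 / 12) = ((π ^ 2 / 12 : ℝ) : ℂ) := by push_cast; ring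
  rw [this, Complex.ofReal_re]

theorem Lam_inv {y : ℝ} (hy : 0 < y) : Lam y⁻¹ = π ^ 2 / 6 + log y ^ 2 / 2 - Lam y := by
  have hv : (-(y : ℂ)) ∈ H954.V := by
    rw [H954.mem_V]
    left
    simp [hy]
  have h1 := H954.Li2_inv hv
  have h2 : (-(y : ℂ))⁻¹ = -((y⁻¹ : ℝ) : ℂ) := by
    rw [inv_neg, Complex.ofReal_inv]
  rw [h2, neg_neg, ← Complex.ofReal_log hy.le] at h1
  rw [Lam, Lam, h1]
  have h3 : (-(-((π : ℂ) ^ 2 / 6) - ((log y : ℝ) : ℂ) ^ 2 / 2 - H954.Li2 (-(y : ℂ))))
      = ((π ^ 2 / 6 + log y ^ 2 / 2 : ℝ) : ℂ) + H954.Li2 (-(y : ℂ)) := by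
    push_cast
    ring
  rw [h3, Complex.add_re, Complex.ofReal_re, Complex.neg_re]
  ring

/-! ### integrals in one variable -/

theorem int_mu1 (f : ℝ → ℝ) : ∫ x, f x ∂mu1 = ∫ x in (0 : ℝ)..(π / 2), f x := by
  rw [mu1, intervalIntegral.integral_of_le (by positivity)]

theorem integrable_mu1 {f : ℝ → ℝ} : Integrable f mu1 ↔ IntervalIntegrable f volume 0 (π / 2) := by
  rw [mu1, intervalIntegrable_iff_integrableOn_Ioc_of_le (by positivity)]
  rfl

theorem sin_pos' {x : ℝ} (h0 : 0 < x) (h1 : x ≤ π / 2) : 0 < sin x :=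
  sin_pos_of_pos_of_lt_pi h0 (by linarith [pi_pos])

theorem cos_nonneg' {x : ℝ} (h0 : 0 ≤ x) (h1 : x ≤ π / 2) : 0 ≤ cos x :=
  cos_nonneg_of_mem_Icc ⟨by linarith [pi_pos], h1⟩

/-- fundamental theorem of calculus with a derivative of one sign -/
theorem ftc_nonneg {F f : ℝ → ℝ} (hc : ContinuousOn F (Icc 0 (π / 2)))
    (hd : ∀ x ∈ Ioo (0 : ℝ) (π / 2), HasDerivAt F (f x) x)
    (h0 : ∀ x ∈ Ioo (0 : ℝ) (π / 2), 0 ≤ f x) :
    Integrable f mu1 ∧ ∫ x, f x ∂mu1 = F (π / 2) - F 0 := by
  have hp : (0 : ℝ) ≤ π / 2 := by positivity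
  have hi : IntervalIntegrable f volume 0 (π / 2) := by
    refine intervalIntegral.intervalIntegrable_deriv_of_nonneg (g := F) ?_ ?_ ?_
    · rwa [uIcc_of_le hp]
    · rwa [min_eq_left hp, max_eq_right hp]
    · rwa [min_eq_left hp, max_eq_right hp]
  exact ⟨integrable_mu1.2 hi, by
    rw [int_mu1]
    exact intervalIntegral.integral_eq_sub_of_hasDerivAt_of_le hp hc hd hi⟩

/-- `tan (x / 2)` -/
noncomputable def tg (x : ℝ) : ℝ := sin x / (1 + cos x)

theorem tg_nonneg {x : ℝ} (h0 : 0 ≤ x) (h1 : x ≤ π / 2) : 0 ≤ tg x :=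
  div_nonneg (sin_nonneg_of_nonneg_of_le_pi h0 (by linarith [pi_pos]))
    (by linarith [cos_nonneg' h0 h1])

theorem tg_le {x : ℝ} (h0 : 0 ≤ x) (h1 : x ≤ π / 2) : tg x ≤ 1 := by
  have h2 := cos_nonneg' h0 h1
  rw [tg, div_le_one (by linarith)]
  linarith [sin_le_one x]

theorem tg_eq {x : ℝ} (h0 : 0 < x) (h1 : x ≤ π / 2) : (1 - cos x) / sin x = tg x := by
  have h2 := cos_nonneg' h0.le h1
  have h3 := sin_pos' h0 h1
  rw [tg, div_eq_div_iff h3.ne' (by linarith)]
  linear_combination -(sin_sq_add_cos_sq x)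

theorem inv_sin_eq {x : ℝ} (h0 : 0 < x) (h1 : x ≤ π / 2) :
    (sin x)⁻¹ = cos x / sin x + tg x := by
  rw [← tg_eq h0 h1]
  field_simp
  ring

theorem meas_tg : Measurable tg := by unfold tg; fun_prop

theorem int_tg : Integrable tg mu1 ∧ ∫ x, tg x ∂mu1 = log 2 := by
  have h := ftc_nonneg (F := fun x => -log (1 + cos x)) (f := tg) ?_ ?_ ?_
  · refine ⟨h.1, h.2.trans ?_⟩
    simp only [cos_pi_div_two, cos_zero, add_zero, log_one]
    norm_num
  · refine ContinuousOn.neg (ContinuousOn.log (by fun_prop) fun x hx => ?_)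
    have := cos_nonneg' hx.1 hx.2
    positivity
  · intro x hx
    have h2 := cos_nonneg' hx.1.le hx.2.le
    have h3 : HasDerivAt (fun x => -log (1 + cos x)) (-((-sin x) / (1 + cos x))) x :=
      (((hasDerivAt_cos x).const_add 1).log (by positivity)).neg
    refine h3.congr_deriv ?_
    rw [tg]
    ring
  · exact fun x hx => tg_nonneg hx.1.le hx.2.le

/-- the cotangent part -/
theorem int_cot {a : ℝ} (ha : 0 < a) :
    Integrable (fun x => cos x / sin x * log (1 + sin x / a)) mu1 ∧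
    ∫ x, cos x / sin x * log (1 + sin x / a) ∂mu1 = Lam a⁻¹ := by
  have h := ftc_nonneg (F := fun x => Lam (sin x / a))
    (f := fun x => cos x / sin x * log (1 + sin x / a)) ?_ ?_ ?_
  · refine ⟨h.1, h.2.trans ?_⟩
    simp only [sin_pi_div_two, sin_zero, zero_div, Lam_zero, one_div, sub_zero]
  · intro x hx
    have h1 : 0 ≤ sin x / a :=
      div_nonneg (sin_nonneg_of_nonneg_of_le_pi hx.1 (by linarith [pi_pos, hx.2])) ha.le
    exact (ContinuousAt.comp (f := fun x => sin x / a) (contAt_Lam h1)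
      (by fun_prop)).continuousWithinAt
  · intro x hx
    have h1 : 0 < sin x := sin_pos' hx.1 hx.2.le
    have h2 := (hasDerivAt_Lam (div_pos h1 ha)).comp x ((hasDerivAt_sin x).div_const a)
    refine h2.congr_deriv ?_
    field_simp
  · intro x hx
    have h1 : 0 < sin x := sin_pos' hx.1 hx.2.le
    have h2 := cos_nonneg' hx.1.le hx.2.le
    have h3 : 0 ≤ log (1 + sin x / a) := log_nonneg (by
      have := div_pos h1 ha
      linarith)
    positivity

/-- the primitive of `log sin x * tan (x / 2)` in the variable `v = tan (x / 2) ^ 2` -/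
noncomputable def ph (v : ℝ) : ℝ :=
  log 2 * log (1 + v) - log (1 + v) ^ 2 / 2 + (log v * log (1 + v) - Lam v) / 2

theorem hasDerivAt_ph {v : ℝ} (hv : 0 < v) :
    HasDerivAt ph ((log 2 - log (1 + v) + log v / 2) / (1 + v)) v := by
  have h1 : HasDerivAt (fun v => log (1 + v)) (1 / (1 + v)) v :=
    ((hasDerivAt_id v).const_add 1).log (by positivity)
  have h2 := ((h1.const_mul (log 2)).sub ((h1.pow 2).div_const 2)).add
    ((((hasDerivAt_log hv.ne').mul h1).sub (hasDerivAt_Lam hv)).div_const 2)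
  refine h2.congr_deriv ?_
  push_cast
  field_simp
  ring

theorem cont_ph : ContinuousOn ph (Ici 0) := by
  intro v hv
  have hv' : (0 : ℝ) ≤ v := hv
  rcases hv'.eq_or_lt with h0 | h0
  · subst h0
    have h1 : ContinuousAt (fun v : ℝ => log (1 + v)) 0 :=
      ContinuousAt.log (by fun_prop) (by norm_num)
    have h2 : ContinuousWithinAt (fun v : ℝ => log v * log (1 + v)) (Ici 0) 0 := by
      rw [ContinuousWithinAt]
      simp only [log_zero, add_zero, log_one, mul_zero]
      have h3 : Tendsto (fun v : ℝ => |v * log v|) (𝓝[Ici 0] 0) (𝓝 0) := by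
        have := (continuous_mul_log.abs.tendsto 0).mono_left
          (nhdsWithin_le_nhds (s := Ici (0 : ℝ)) (a := 0))
        simpa using this
      refine squeeze_zero_norm' ?_ h3
      filter_upwards [self_mem_nhdsWithin] with w hw
      have hw' : (0 : ℝ) ≤ w := hw
      have h4 : 0 ≤ log (1 + w) := log_nonneg (by linarith)
      have h5 : log (1 + w) ≤ w := by
        have := log_le_sub_one_of_pos (show (0 : ℝ) < 1 + w by linarith)
        linarith
      rw [norm_mul, Real.norm_eq_abs, Real.norm_eq_abs, abs_of_nonneg h4, abs_mul,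
        abs_of_nonneg hw', mul_comm]
      exact mul_le_mul_of_nonneg_right h5 (abs_nonneg _)
    exact ((h1.continuousWithinAt.const_mul _).sub ((h1.continuousWithinAt.pow 2).div_const 2)).add
      ((h2.sub (contAt_Lam le_rfl).continuousWithinAt).div_const 2)
  · exact (hasDerivAt_ph h0).continuousAt.continuousWithinAt

/-- `∫ tan (x / 2) log sin x` -/
theorem int_tg_log : Integrable (fun x => tg x * log (sin x)) mu1 ∧
    ∫ x, tg x * log (sin x) ∂mu1 = log 2 ^ 2 / 2 - π ^ 2 / 24 := by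
  have h := ftc_nonneg (F := fun x => -ph ((1 - cos x) / (1 + cos x)))
    (f := fun x => -(tg x * log (sin x))) ?_ ?_ ?_
  · have h1 : Integrable (fun x => tg x * log (sin x)) mu1 := by
      simpa using h.1.neg
    refine ⟨h1, ?_⟩
    have h2 := h.2
    rw [integral_neg] at h2
    simp only [cos_pi_div_two, cos_zero, add_zero, sub_zero, div_one, sub_self, zero_div] at h2
    have h3 : ph 0 = 0 := by
      simp [ph, Lam_zero]
    have h4 : ph 1 = log 2 ^ 2 / 2 - π ^ 2 / 24 := by
      rw [ph, Lam_one, log_one, one_add_one_eq_two]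
      ring
    rw [h3, h4] at h2
    linarith
  · refine ContinuousOn.neg (cont_ph.comp (ContinuousOn.div (by fun_prop) (by fun_prop)
      fun x hx => ?_) fun x hx => ?_)
    · have := cos_nonneg' hx.1 hx.2
      positivity
    · have h1 := cos_nonneg' hx.1 hx.2
      show (0 : ℝ) ≤ (1 - cos x) / (1 + cos x)
      exact div_nonneg (by linarith [cos_le_one x]) (by linarith)
  · intro x hx
    have h1 := cos_nonneg' hx.1.le hx.2.le
    have h2 : 0 < sin x := sin_pos' hx.1 hx.2.le
    have h3 : cos x < 1 := by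
      have := sin_sq_add_cos_sq x
      nlinarith
    have h4 : (0 : ℝ) < 1 - cos x := by linarith
    have h5 : (0 : ℝ) < 1 + cos x := by linarith
    have h6 : HasDerivAt (fun x => (1 - cos x) / (1 + cos x))
        ((sin x * (1 + cos x) - (1 - cos x) * (-sin x)) / (1 + cos x) ^ 2) x := by
      have e1 : HasDerivAt (fun x => 1 - cos x) (sin x) x := by
        have := (hasDerivAt_cos x).const_sub 1
        simpa using this
      exact e1.div ((hasDerivAt_cos x).const_add 1) h5.ne'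
    have h7 := ((hasDerivAt_ph (div_pos h4 h5)).comp x h6).neg
    refine h7.congr_deriv ?_
    have e1 : 1 + (1 - cos x) / (1 + cos x) = 2 / (1 + cos x) := by
      field_simp
      ring
    have e2 : log (sin x) = (log (1 - cos x) + log (1 + cos x)) / 2 := by
      rw [← log_mul h4.ne' h5.ne']
      have : (1 - cos x) * (1 + cos x) = sin x ^ 2 := by
        linear_combination -(sin_sq_add_cos_sq x)
      rw [this, log_pow]
      push_cast
      ring
    rw [e1, e2, log_div two_ne_zero h5.ne', log_div h4.ne' h5.ne', tg]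
    field_simp
    ring
  · intro x hx
    have h1 := tg_nonneg hx.1.le hx.2.le
    have h2 : log (sin x) ≤ 0 := log_nonpos (sin_pos' hx.1 hx.2.le).le (sin_le_one x)
    nlinarith

/-! ### the double integral -/

theorem inner_int {a s : ℝ} (ha : 0 < a) (hs : 0 < s) :
    ∫ x, cos x * (a + sin x * s)⁻¹ ∂mu1 = s⁻¹ * log (1 + s / a) := by
  have h := ftc_nonneg (F := fun x => s⁻¹ * log (a + sin x * s))
    (f := fun x => cos x * (a + sin x * s)⁻¹) ?_ ?_ ?_
  · rw [h.2]
    simp only [sin_pi_div_two, sin_zero, zero_mul, add_zero, one_mul]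
    rw [← mul_sub, ← log_div (by positivity) ha.ne']
    congr 2
    field_simp
  · refine ContinuousOn.mul continuousOn_const (ContinuousOn.log (by fun_prop) fun x hx => ?_)
    have h1 : 0 ≤ sin x := sin_nonneg_of_nonneg_of_le_pi hx.1 (by linarith [pi_pos, hx.2])
    positivity
  · intro x hx
    have h1 : 0 < sin x := sin_pos' hx.1 hx.2.le
    have h2 : HasDerivAt (fun x => a + sin x * s) (cos x * s) x :=
      ((hasDerivAt_sin x).mul_const s).const_add a
    refine ((h2.log (by positivity)).const_mul s⁻¹).congr_deriv ?_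
    field_simp
  · intro x hx
    have h1 : 0 < sin x := sin_pos' hx.1 hx.2.le
    have h2 := cos_nonneg' hx.1.le hx.2.le
    positivity

theorem ss_nonneg : ∀ᵐ x ∂mu2, 0 ≤ ss x := by
  filter_upwards [ae_ss] with x hx using hx.1

/-- integrability of bounded functions times the kernel -/
theorem integrable_ker {a : ℝ} (ha : 0 < a) {g : ℝ × ℝ → ℝ} (hg : Measurable g)
    (hb : ∀ x, |g x| ≤ 4) : Integrable (fun x => g x * (a + ss x)⁻¹) mu2 := by
  refine Integrable.of_bound (C := 4 * a⁻¹)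
    ((hg.mul ((measurable_const.add meas_ss).inv)).aestronglyMeasurable) ?_
  filter_upwards [ss_nonneg] with x hx
  have h0 : 0 < a + ss x := by linarith
  rw [norm_mul, norm_inv, Real.norm_eq_abs, Real.norm_eq_abs, abs_of_pos h0]
  have h1 : (a + ss x)⁻¹ ≤ a⁻¹ := by gcongr; linarith
  exact mul_le_mul (hb x) h1 (inv_nonneg.2 h0.le) (by norm_num)

/-- the first term -/
theorem term1 {a : ℝ} (ha : 0 < a) : ∫ x, cos x.1 * (a + ss x)⁻¹ ∂mu2
    = ∫ y, (sin y)⁻¹ * log (1 + sin y / a) ∂mu1 := by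
  have hi : Integrable (fun x : ℝ × ℝ => cos x.1 * (a + ss x)⁻¹) mu2 :=
    integrable_ker ha (g := fun x => cos x.1) (by fun_prop) fun x => by
      linarith [abs_cos_le_one x.1]
  rw [mu2] at hi ⊢
  rw [integral_prod_symm _ hi]
  refine integral_congr_ae ?_
  filter_upwards [ae_mu1] with y hy
  exact inner_int ha (sin_pos' hy.1 hy.2)

theorem abs_one_sub_cos (x : ℝ) : |1 - cos x| ≤ 2 := by
  rw [abs_le]
  constructor <;> linarith [cos_le_one x, neg_one_le_cos x]

/-- the second term -/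
theorem term2 {a : ℝ} (ha : 0 < a) : ∫ x, (1 - cos x.1) * cos x.2 * (a + ss x)⁻¹ ∂mu2
    = ∫ x, tg x * log (1 + sin x / a) ∂mu1 := by
  have hi : Integrable (fun x : ℝ × ℝ => (1 - cos x.1) * cos x.2 * (a + ss x)⁻¹) mu2 := by
    refine integrable_ker ha (g := fun x => (1 - cos x.1) * cos x.2) (by fun_prop) fun x => ?_
    rw [abs_mul]
    have h1 := abs_one_sub_cos x.1
    have h2 := abs_cos_le_one x.2
    nlinarith [abs_nonneg (1 - cos x.1), abs_nonneg (cos x.2)]
  rw [mu2] at hi ⊢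
  rw [integral_prod _ hi]
  refine integral_congr_ae ?_
  filter_upwards [ae_mu1] with x hx
  have h1 := inner_int ha (sin_pos' hx.1 hx.2)
  have h2 : ∀ y, (1 - cos x) * cos y * (a + ss (x, y))⁻¹
      = (1 - cos x) * (cos y * (a + sin y * sin x)⁻¹) := by
    intro y
    rw [ss, mul_comm (sin x) (sin y), mul_assoc]
  simp only [h2]
  rw [integral_const_mul, h1, ← mul_assoc, ← div_eq_mul_inv, tg_eq hx.1 hx.2]

theorem int_tg_tg : ∫ x, tg x.1 * tg x.2 ∂mu2 = log 2 ^ 2 := by
  rw [mu2, integral_prod_mul (fun x => tg x) (fun x => tg x), int_tg.2, sq]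

/-- the third term -/
theorem term3 : Tendsto (fun a : ℝ => ∫ x, (1 - cos x.1) * (1 - cos x.2) * (a + ss x)⁻¹ ∂mu2)
    (𝓝[>] 0) (𝓝 (log 2 ^ 2)) := by
  rw [← int_tg_tg]
  refine tendsto_integral_filter_of_dominated_convergence (fun _ => (1 : ℝ)) ?_ ?_
    (integrable_const _) ?_
  · refine Eventually.of_forall fun a => Measurable.aestronglyMeasurable ?_
    exact Measurable.mul (by fun_prop) (measurable_const.add meas_ss).inv
  · filter_upwards [self_mem_nhdsWithin] with a ha
    have ha' : (0 : ℝ) < a := ha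
    filter_upwards [ae_mu2] with x hx
    have s1 := sin_pos' hx.1.1 hx.1.2
    have s2 := sin_pos' hx.2.1 hx.2.2
    have t1 := tg_nonneg hx.1.1.le hx.1.2
    have t2 := tg_nonneg hx.2.1.le hx.2.2
    have c1 : 0 ≤ 1 - cos x.1 := by linarith [cos_le_one x.1]
    have c2 : 0 ≤ 1 - cos x.2 := by linarith [cos_le_one x.2]
    have hss : 0 < ss x := mul_pos s1 s2
    have h1 : (a + ss x)⁻¹ ≤ (ss x)⁻¹ := by gcongr; linarith
    rw [Real.norm_eq_abs, abs_of_nonneg (by positivity)]
    calc (1 - cos x.1) * (1 - cos x.2) * (a + ss x)⁻¹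
        ≤ (1 - cos x.1) * (1 - cos x.2) * (ss x)⁻¹ :=
          mul_le_mul_of_nonneg_left h1 (mul_nonneg c1 c2)
      _ = (1 - cos x.1) / sin x.1 * ((1 - cos x.2) / sin x.2) := by
          rw [ss]
          field_simp
      _ = tg x.1 * tg x.2 := by rw [tg_eq hx.1.1 hx.1.2, tg_eq hx.2.1 hx.2.2]
      _ ≤ 1 := mul_le_one₀ (tg_le hx.1.1.le hx.1.2) t2 (tg_le hx.2.1.le hx.2.2)
  · filter_upwards [ae_mu2] with x hx
    have s1 := sin_pos' hx.1.1 hx.1.2
    have s2 := sin_pos' hx.2.1 hx.2.2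
    have hss : 0 < ss x := mul_pos s1 s2
    have h1 : tg x.1 * tg x.2 = (1 - cos x.1) * (1 - cos x.2) * (0 + ss x)⁻¹ := by
      rw [← tg_eq hx.1.1 hx.1.2, ← tg_eq hx.2.1 hx.2.2, ss, zero_add]
      field_simp
    rw [h1]
    have h2 : ContinuousAt (fun a : ℝ => (1 - cos x.1) * (1 - cos x.2) * (a + ss x)⁻¹) 0 :=
      ContinuousAt.mul continuousAt_const
        (ContinuousAt.inv₀ (by fun_prop) (by rw [zero_add]; exact hss.ne'))
    exact h2.tendsto.mono_left nhdsWithin_le_nhds

theorem integrable_tg_log {a : ℝ} (ha : 0 < a) :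
    Integrable (fun x => tg x * log (a + sin x)) mu1 := by
  have hp : (0 : ℝ) ≤ π / 2 := by positivity
  refine integrable_mu1.2 (ContinuousOn.intervalIntegrable ?_)
  rw [uIcc_of_le hp]
  refine ContinuousOn.mul (ContinuousOn.div (by fun_prop) (by fun_prop) fun x hx => ?_)
    (ContinuousOn.log (by fun_prop) fun x hx => ?_)
  · have := cos_nonneg' hx.1 hx.2
    positivity
  · have h1 : 0 ≤ sin x := sin_nonneg_of_nonneg_of_le_pi hx.1 (by linarith [pi_pos, hx.2])
    positivity

/-- the dominated part -/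
theorem term4 : Tendsto (fun a : ℝ => ∫ x, tg x * log (a + sin x) ∂mu1)
    (𝓝[>] 0) (𝓝 (log 2 ^ 2 / 2 - π ^ 2 / 24)) := by
  rw [← int_tg_log.2]
  refine tendsto_integral_filter_of_dominated_convergence
    (fun x => tg x - tg x * log (sin x)) ?_ ?_ (int_tg.1.sub int_tg_log.1) ?_
  · refine Eventually.of_forall fun a => Measurable.aestronglyMeasurable ?_
    exact meas_tg.mul (by fun_prop)
  · have hlt : ∀ᶠ a : ℝ in 𝓝[>] 0, a < 1 :=
      nhdsWithin_le_nhds (gt_mem_nhds zero_lt_one)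
    filter_upwards [self_mem_nhdsWithin, hlt] with a ha ha1
    have ha' : (0 : ℝ) < a := ha
    filter_upwards [ae_mu1] with x hx
    have s1 := sin_pos' hx.1 hx.2
    have t1 := tg_nonneg hx.1.le hx.2
    have h0 : |log (a + sin x)| ≤ 1 - log (sin x) := by
      have h1 : log (sin x) ≤ 0 := log_nonpos s1.le (sin_le_one x)
      rcases le_total (a + sin x) 1 with h | h
      · rw [abs_of_nonpos (log_nonpos (by linarith) h)]
        have := log_le_log s1 (show sin x ≤ a + sin x by linarith)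
        linarith
      · rw [abs_of_nonneg (log_nonneg h)]
        have := log_le_sub_one_of_pos (show 0 < a + sin x by linarith)
        linarith [sin_le_one x]
    rw [norm_mul, Real.norm_eq_abs, Real.norm_eq_abs, abs_of_nonneg t1]
    calc tg x * |log (a + sin x)| ≤ tg x * (1 - log (sin x)) := mul_le_mul_of_nonneg_left h0 t1
      _ = _ := by ring
  · filter_upwards [ae_mu1] with x hx
    have s1 := sin_pos' hx.1 hx.2
    have h2 : ContinuousAt (fun a : ℝ => tg x * log (a + sin x)) 0 :=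
      ContinuousAt.mul continuousAt_const
        (ContinuousAt.log (by fun_prop) (by rw [zero_add]; exact s1.ne'))
    have h3 := h2.tendsto
    simp only [zero_add] at h3
    exact h3.mono_left nhdsWithin_le_nhds

theorem tg_log_eq {a : ℝ} (ha : 0 < a) :
    Integrable (fun x => tg x * log (1 + sin x / a)) mu1 ∧
    ∫ x, tg x * log (1 + sin x / a) ∂mu1
      = (∫ x, tg x * log (a + sin x) ∂mu1) - log a * log 2 := by
  have h1 : (fun x => tg x * log (1 + sin x / a)) =ᵐ[mu1]
      fun x => tg x * log (a + sin x) - log a * tg x := by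
    filter_upwards [ae_mu1] with x hx
    have s1 := sin_pos' hx.1 hx.2
    have h2 : 1 + sin x / a = (a + sin x) / a := by
      field_simp
    rw [h2, log_div (by positivity) ha.ne']
    ring
  have h3 := (integrable_tg_log ha).sub (int_tg.1.const_mul (log a))
  refine ⟨h3.congr h1.symm, ?_⟩
  rw [integral_congr_ae h1, integral_sub (integrable_tg_log ha) (int_tg.1.const_mul _),
    integral_const_mul, int_tg.2]

/-- **The asymptotic expansion of the double integral.** -/
theorem dbl_asym : Tendsto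
    (fun a : ℝ => (∫ x, (a + ss x)⁻¹ ∂mu2) - (1 / 2) * (Real.log a - 2 * Real.log 2) ^ 2)
    (𝓝[>] 0) (𝓝 (Real.pi ^ 2 / 12)) := by
  have hLam : Tendsto Lam (𝓝[>] 0) (𝓝 0) := by
    have := (contAt_Lam le_rfl).tendsto
    rw [Lam_zero] at this
    exact this.mono_left nhdsWithin_le_nhds
  have key := ((((tendsto_const_nhds (x := π ^ 2 / 6)).sub hLam).add
    (term4.const_mul 2)).sub (tendsto_const_nhds (x := 2 * log 2 ^ 2))).add term3
  have e : π ^ 2 / 6 - 0 + 2 * (log 2 ^ 2 / 2 - π ^ 2 / 24) - 2 * log 2 ^ 2 + log 2 ^ 2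
      = π ^ 2 / 12 := by ring
  rw [e] at key
  refine key.congr' ?_
  filter_upwards [self_mem_nhdsWithin] with a ha
  have ha' : (0 : ℝ) < a := ha
  have i1 : Integrable (fun x : ℝ × ℝ => cos x.1 * (a + ss x)⁻¹) mu2 :=
    integrable_ker ha' (g := fun x => cos x.1) (by fun_prop) fun x => by
      linarith [abs_cos_le_one x.1]
  have i2 : Integrable (fun x : ℝ × ℝ => (1 - cos x.1) * cos x.2 * (a + ss x)⁻¹) mu2 := by
    refine integrable_ker ha' (g := fun x => (1 - cos x.1) * cos x.2) (by fun_prop) fun x => ?_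
    rw [abs_mul]
    have h1 := abs_one_sub_cos x.1
    have h2 := abs_cos_le_one x.2
    nlinarith [abs_nonneg (1 - cos x.1), abs_nonneg (cos x.2)]
  have i3 : Integrable (fun x : ℝ × ℝ => (1 - cos x.1) * (1 - cos x.2) * (a + ss x)⁻¹) mu2 := by
    refine integrable_ker ha' (g := fun x => (1 - cos x.1) * (1 - cos x.2)) (by fun_prop)
      fun x => ?_
    rw [abs_mul]
    have h1 := abs_one_sub_cos x.1
    have h2 := abs_one_sub_cos x.2
    nlinarith [abs_nonneg (1 - cos x.1), abs_nonneg (1 - cos x.2)]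
  have hsum : ∫ x, (a + ss x)⁻¹ ∂mu2 = (∫ x, cos x.1 * (a + ss x)⁻¹ ∂mu2)
      + (∫ x, (1 - cos x.1) * cos x.2 * (a + ss x)⁻¹ ∂mu2)
      + ∫ x, (1 - cos x.1) * (1 - cos x.2) * (a + ss x)⁻¹ ∂mu2 := by
    have i12 : Integrable (fun x : ℝ × ℝ => cos x.1 * (a + ss x)⁻¹
        + (1 - cos x.1) * cos x.2 * (a + ss x)⁻¹) mu2 := i1.add i2
    rw [← integral_add i1 i2, ← integral_add i12 i3]
    refine integral_congr_ae (Eventually.of_forall fun x => ?_)
    simp only
    ring
  have h1 : ∫ y, (sin y)⁻¹ * log (1 + sin y / a) ∂mu1 = Lam a⁻¹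
      + ∫ x, tg x * log (1 + sin x / a) ∂mu1 := by
    rw [← (int_cot ha').2, ← integral_add (int_cot ha').1 (tg_log_eq ha').1]
    refine integral_congr_ae ?_
    filter_upwards [ae_mu1] with x hx
    rw [inv_sin_eq hx.1 hx.2]
    ring
  rw [hsum, term1 ha', term2 ha', h1, (tg_log_eq ha').2, Lam_inv ha']
  ring

end Vale.Agent.P030.H639
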