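import Vale.Agent.P030.H639.N8c
import Vale.Agent.P030.H352.Disc

/-!
# P030, route N, row N8 (4): the relations at the cusps for arbitrary rows and coordinates

`A` = change of the rows (`A' * A = 1`), `Q` = change of the coordinates.  `AP`, `EP`, `RP` = the rows
`e, a, c, d, h, d+g, A0/π, A3/π`.
-/

open Matrix

namespace Vale.Agent.P030.H639

open Vale.Agent.P030.AR Vale.Agent.P030.H787 Vale.Agent.P030.H265 Vale.Agent.P030.H580
open Vale.Agent.P030.H352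

set_option linter.unusedSimpArgs false
set_option linter.unreachableTactic false
set_option linter.unusedTactic false

noncomputable section

theorem glc_eq (c : Fin 4) : glc c = gl c := by fin_cases c <;> rfl

/-- the flat vectors at a cusp as a matrix -/
def gm (c : Fin 4) (T t : ℂ) : Matrix (Fin 8) (Fin 8) ℂ := glc c T t

theorem gm_apply (c : Fin 4) (T t : ℂ) (i j : Fin 8) : gm c T t i j = gl c T t i j := by
  rw [← glc_eq]; rfl

/-- the flat vectors as a matrix -/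
theorem glc_E (c : Fin 4) (T : ℂ) {t : ℂ} (ht : ‖t‖ < 1) (ht0 : t ≠ 0) :
    gm c T t = E c T * gm c 0 t := by
  ext i j
  rw [gm_apply, Matrix.mul_apply]
  have h := congrFun (gl_E c T ht ht0 i) j
  simp only [Finset.sum_apply, Pi.smul_apply, smul_eq_mul] at h
  rw [h]
  exact Finset.sum_congr rfl fun k _ => by rw [gm_apply]

/-- the mirror flat vectors as a matrix -/
theorem cj_glc_E (c : Fin 4) (T : ℂ) {t : ℂ} (ht : ‖t‖ < 1) (ht0 : t ≠ 0) :
    cj (gm c T ((starRingEnd ℂ) t)) = cj (E c T) * Rf (qc c) * gm c 0 t := by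
  have h1 : ‖(starRingEnd ℂ) t‖ < 1 := by rwa [Complex.norm_conj]
  have h2 : (starRingEnd ℂ) t ≠ 0 := by simpa using ht0
  have h3 : cj (gm c 0 ((starRingEnd ℂ) t)) = Rf (qc c) * gm c 0 t := by
    ext i j
    rw [cj_apply, gm_apply, conj_gl0 c ht ht0, Matrix.mul_apply]
    exact Finset.sum_congr rfl fun k _ => by rw [gm_apply]
  rw [glc_E c T h1 h2, cj_mul, h3, Matrix.mul_assoc]

/-- **flat matrix over the disc matrix**, any rows `A` and coordinates `Q` -/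
theorem adm_glc (c : Fin 4) (T : ℂ) {t : ℂ} (ht : ‖t‖ < 1) (ht0 : t ≠ 0)
    {A A' : Matrix (Fin 8) (Fin 8) ℂ} (hA : A' * A = 1) (Q : Matrix (Fin 8) (Fin 8) ℂ) :
    adm A Q (glc c T t) = (A * E c T * A') * adm A Q (glc c 0 t) := by
  change A * gm c T t * Q = (A * E c T * A') * (A * gm c 0 t * Q)
  rw [glc_E c T ht ht0]
  have h : A' * (A * gm c 0 t * Q) =
      gm c 0 t * Q := by
    rw [← Matrix.mul_assoc, ← Matrix.mul_assoc, hA, Matrix.one_mul]
  rw [Matrix.mul_assoc (A * E c T) A', h]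
  simp only [Matrix.mul_assoc]

/-- **mirror flat matrix over the disc matrix** (`Q` real) -/
theorem cj_adm_glc (c : Fin 4) (T : ℂ) {t : ℂ} (ht : ‖t‖ < 1) (ht0 : t ≠ 0)
    {A A' Q : Matrix (Fin 8) (Fin 8) ℂ} (hA : A' * A = 1) (hQ : cj Q = Q) :
    cj (adm A Q (glc c T ((starRingEnd ℂ) t))) =
      (cj A * cj (E c T) * Rf (qc c) * A') * adm A Q (glc c 0 t) := by
  change cj (A * gm c T ((starRingEnd ℂ) t) * Q) =
    (cj A * cj (E c T) * Rf (qc c) * A') * (A * gm c 0 t * Q)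
  have h : A' * (A * gm c 0 t * Q) =
      gm c 0 t * Q := by
    rw [← Matrix.mul_assoc, ← Matrix.mul_assoc, hA, Matrix.one_mul]
  rw [cj_mul, cj_mul, cj_glc_E c T ht ht0, hQ, Matrix.mul_assoc (cj A * cj (E c T) * Rf (qc c)) A',
    h]
  simp only [Matrix.mul_assoc]

/-- the inverse of `AD` -/
def ADi : Matrix (Fin 8) (Fin 8) ℂ := !![1, 0, 0, 0, 0, 0, 0, 0;
      0, 1, 0, 0, 0, 0, 0, 0;
      0, 0, 1, 0, 0, 0, 0, 0;
      0, 0, 0, 1, 0, 0, 0, 0;
      0, 0, 0, -1, 0, 1, 0, 0;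
      0, 0, 0, 0, 1, 0, 0, 0;
      0, 0, 0, 0, 0, 0, 1, 0;
      0, 0, 0, 0, 0, 0, 0, 1]

theorem ADi_mul : ADi * AD = 1 := by
  ext i j
  revert j
  fin_cases i <;> intro j <;> fin_cases j <;>
    simp [AD, ADi, Matrix.mul_apply, Fin.sum_univ_eight, Matrix.one_apply]

theorem cj_one : cj (1 : Matrix (Fin 8) (Fin 8) ℂ) = 1 := by
  ext i j
  rw [cj_apply, Matrix.one_apply]
  split_ifs <;> simp

theorem Rf_inv (q : Fin 4) : cj (Rf q) * Rf q = 1 := by
  have h1 : ADi * AD = 1 := ADi_mul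
  have h2 : AD * ADi = 1 := mul_eq_one_comm.1 h1
  have h3 : cj AD * cj (Rf q) = cj (RA q) * cj AD := by rw [← cj_mul, ← cj_mul, AD_Rf]
  rw [cj_AD] at h3
  calc cj (Rf q) * Rf q = (ADi * AD) * cj (Rf q) * Rf q := by rw [h1, Matrix.one_mul]
    _ = ADi * (AD * cj (Rf q)) * Rf q := by simp only [Matrix.mul_assoc]
    _ = ADi * cj (RA q) * (AD * Rf q) := by rw [h3]; simp only [Matrix.mul_assoc]
    _ = ADi * (cj (RA q) * RA q) * AD := by rw [AD_Rf]; simp only [Matrix.mul_assoc]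
    _ = 1 := by rw [RA_inv, Matrix.mul_one, h1]

/-- **disc matrix over the flat matrix** -/
theorem adm_glc0 (c : Fin 4) (T : ℂ) {t : ℂ} (ht : ‖t‖ < 1) (ht0 : t ≠ 0)
    {A A' : Matrix (Fin 8) (Fin 8) ℂ} (hA : A' * A = 1) (Q : Matrix (Fin 8) (Fin 8) ℂ) :
    adm A Q (glc c 0 t) = (A * E c (-T) * A') * adm A Q (glc c T t) := by
  have hA' : A * A' = 1 := mul_eq_one_comm.1 hA
  rw [adm_glc c T ht ht0 hA Q, ← Matrix.mul_assoc]
  have h : A * E c (-T) * A' * (A * E c T * A') = 1 := by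
    calc A * E c (-T) * A' * (A * E c T * A') = A * (E c (-T) * ((A' * A) * E c T)) * A' := by
          simp only [Matrix.mul_assoc]
      _ = 1 := by rw [hA, Matrix.one_mul, E_neg, Matrix.mul_one, hA']
  rw [h, Matrix.one_mul]

/-- **disc matrix over the mirror flat matrix** -/
theorem adm_glc0_cj (c : Fin 4) (T : ℂ) {t : ℂ} (ht : ‖t‖ < 1) (ht0 : t ≠ 0)
    {A A' Q : Matrix (Fin 8) (Fin 8) ℂ} (hA : A' * A = 1) (hQ : cj Q = Q) :
    adm A Q (glc c 0 t) = (A * cj (Rf (qc c)) * cj (E c (-T)) * cj A') *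
      cj (adm A Q (glc c T ((starRingEnd ℂ) t))) := by
  have hA' : A * A' = 1 := mul_eq_one_comm.1 hA
  have hcA : cj A' * cj A = 1 := by rw [← cj_mul, hA, cj_one]
  have hE : cj (E c (-T)) * cj (E c T) = 1 := by rw [← cj_mul, E_neg, cj_one]
  rw [cj_adm_glc c T ht ht0 hA hQ, ← Matrix.mul_assoc]
  have h : A * cj (Rf (qc c)) * cj (E c (-T)) * cj A' *
      (cj A * cj (E c T) * Rf (qc c) * A') = 1 := by
    calc A * cj (Rf (qc c)) * cj (E c (-T)) * cj A' * (cj A * cj (E c T) * Rf (qc c) * A') =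
        A * (cj (Rf (qc c)) * (cj (E c (-T)) * ((cj A' * cj A) * cj (E c T)) * Rf (qc c))) * A' := by
          simp only [Matrix.mul_assoc]
      _ = 1 := by rw [hcA, Matrix.one_mul, hE, Matrix.one_mul, Rf_inv, Matrix.mul_one, hA']
  rw [h, Matrix.one_mul]

/-! ### the rows `e, a, c, d, h, d+g, A0/π, A3/π` -/

/-- the rows -/
def AP : Matrix (Fin 8) (Fin 8) ℂ := !![1, 0, 0, 0, 0, 0, 0, 0;
      0, 1, 0, 0, 0, 0, 0, 0;
      0, 0, 1, 0, 0, 0, 0, 0;
      0, 0, 0, 1, 0, 0, 0, 0;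
      0, 0, 0, 0, 0, 1, 0, 0;
      0, 0, 0, 1, 1, 0, 0, 0;
      0, 0, 0, 0, 0, 0, 1 / pc, 0;
      0, 0, 0, 0, 0, 0, 0, 1 / pc]

/-- its inverse -/
def APi : Matrix (Fin 8) (Fin 8) ℂ := !![1, 0, 0, 0, 0, 0, 0, 0;
      0, 1, 0, 0, 0, 0, 0, 0;
      0, 0, 1, 0, 0, 0, 0, 0;
      0, 0, 0, 1, 0, 0, 0, 0;
      0, 0, 0, -1, 0, 1, 0, 0;
      0, 0, 0, 0, 1, 0, 0, 0;
      0, 0, 0, 0, 0, 0, pc, 0;
      0, 0, 0, 0, 0, 0, 0, pc]

theorem APi_mul : APi * AP = 1 := by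
  have hp := pc_ne
  ext i j
  revert j
  fin_cases i <;> intro j <;> fin_cases j <;>
    simp [AP, APi, Matrix.mul_apply, Fin.sum_univ_eight, Matrix.one_apply, hp]

theorem cj_AP : cj AP = AP := by
  ext i j
  revert j
  fin_cases i <;> intro j <;> fin_cases j <;> simp [AP, cj_apply, conj_pc]

/-- `E c T` in these rows -/
def EP : Fin 4 → ℂ → Matrix (Fin 8) (Fin 8) ℂ
  | 0, T => !![1, 0, 0, 0, 0, 0, 0, 0;
      0, 1, 0, 0, 0, 0, 0, 0;
      0, 0, 1, T, 0, 0, 0, 0;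
      0, 0, 0, 1, 0, 0, 0, 0;
      0, 0, 0, 0, 1, 0, 0, 0;
      0, 0, 0, 0, 0, 1, 0, 0;
      0, 0, 0, 0, 0, 0, 1, 0;
      0, 0, 0, 0, 0, 0, -(2 / pc * T), 1]
  | 1, T => !![1, 0, 0, 0, 0, 0, 0, 0;
      0, 1, 0, -T, 0, T, 0, 0;
      0, 0, 1, -T, 0, T, 0, 0;
      0, 0, 0, 1, 0, 0, 0, 0;
      0, 0, 0, 0, 1, 0, 0, 0;
      0, 0, 0, 0, 0, 1, 0, 0;
      0, 0, 0, 0, 0, 0, 1 - 2 * Complex.I / pc * T, -(1 / pc * T);
      0, 0, 0, 0, 0, 0, -(4 / pc * T), 1 + 2 * Complex.I / pc * T]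
  | 2, T => !![1, 0, T, l2 / 2 * T, l2 / 2 * T + T ^ 2 / 2,
        -((l2 / 2 + Complex.I * pc) * T) - T ^ 2 / 2,
        -(pc * T / 4), Complex.I * pc * T / 4;
      0, 1, 0, T / 2, T / 2, -(T / 2), 0, 0;
      0, 0, 1, 0, T, -T, 0, 0;
      0, 0, 0, 1, 0, 0, 0, 0;
      0, 0, 0, 0, 1, 0, 0, 0;
      0, 0, 0, 0, 0, 1, 0, 0;
      0, 0, 0, 0, 0, 0, 1 - 2 * Complex.I / pc * T, -(2 / pc * T);
      0, 0, 0, 0, 0, 0, -(2 / pc * T), 1 + 2 * Complex.I / pc * T]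
  | 3, T => !![1, 0, -T, -(l2 / 2 * T), -(l2 / 2 * T) + T ^ 2 / 2, l2 / 2 * T, pc * T / 4,
        -(T ^ 2 / 8);
      0, 1, 0, T / 2, -(T / 2), -(T / 2), 0, 0;
      0, 0, 1, 0, -T, 0, 0, 0;
      0, 0, 0, 1, 0, 0, 0, 0;
      0, 0, 0, 0, 1, 0, 0, 0;
      0, 0, 0, 0, 0, 1, 0, 0;
      0, 0, 0, 0, 0, 0, 1, -(1 / pc * T);
      0, 0, 0, 0, 0, 0, 0, 1]

/-- `Rf q` in these rows -/
def RP : Fin 4 → Matrix (Fin 8) (Fin 8) ℂ
  | 0 => !![1, 0, 0, 0, 0, 0, 0, 0;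
            0, 1, 0, 2 * pc * Complex.I, 0, -(2 * pc * Complex.I), 0, 0;
            0, 0, 1, 0, 0, -(2 * pc * Complex.I), 0, 0;
            0, 0, 0, 1, 0, 0, 0, 0;
            0, 0, 0, 0, 1, 0, 0, 0;
            0, 0, 0, 0, 0, 1, 0, 0;
            0, 0, 0, 0, 0, 0, -3, 2 * Complex.I;
            0, 0, 0, 0, 0, 0, -4 * Complex.I, -3]
  | 1 => !![1, 0, 0, 0, 0, 0, 0, 0;
            0, 1, 0, 0, 0, 0, 0, 0;
            0, 0, 1, -(2 * pc * Complex.I), 0, 0, 0, 0;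
            0, 0, 0, 1, 0, 0, 0, 0;
            0, 0, 0, 0, 1, 0, 0, 0;
            0, 0, 0, 0, 0, 1, 0, 0;
            0, 0, 0, 0, 0, 0, 1, 0;
            0, 0, 0, 0, 0, 0, 4 * Complex.I, 1]
  | 2 => 1
  | 3 => !![1, 0, -(2 * pc * Complex.I), -(pc * Complex.I * l2),
              -(2 * pc * Complex.I * (l2 / 2 - Complex.I * pc)), pc * Complex.I * l2,
              pc ^ 2 * Complex.I / 2, pc ^ 2 / 2;
            0, 1, 0, pc * Complex.I, -(pc * Complex.I), -(pc * Complex.I), 0, 0;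
            0, 0, 1, 0, -(2 * pc * Complex.I), 0, 0, 0;
            0, 0, 0, 1, 0, 0, 0, 0;
            0, 0, 0, 0, 1, 0, 0, 0;
            0, 0, 0, 0, 0, 1, 0, 0;
            0, 0, 0, 0, 0, 0, 1, -2 * Complex.I;
            0, 0, 0, 0, 0, 0, 0, 1]

theorem AP_E0 (T : ℂ) (i j : Fin 8) : (AP * E 0 T) i j = (EP 0 T * AP) i j := by
  have hp := pc_ne
  revert j
  fin_cases i <;> intro j <;> fin_cases j <;>
    simp [AP, E, EP, Matrix.mul_apply, Fin.sum_univ_eight]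
  all_goals first
    | ring1
    | (field_simp; done)
    | (field_simp; ring1)

theorem AP_E1 (T : ℂ) (i j : Fin 8) : (AP * E 1 T) i j = (EP 1 T * AP) i j := by
  have hp := pc_ne
  revert j
  fin_cases i <;> intro j <;> fin_cases j <;>
    simp [AP, E, EP, Matrix.mul_apply, Fin.sum_univ_eight]
  all_goals first
    | ring1
    | (field_simp; done)
    | (field_simp; ring1)

theorem AP_E2 (T : ℂ) (i j : Fin 8) : (AP * E 2 T) i j = (EP 2 T * AP) i j := by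
  have hp := pc_ne
  revert j
  fin_cases i <;> intro j <;> fin_cases j <;>
    simp [AP, E, EP, Matrix.mul_apply, Fin.sum_univ_eight]
  all_goals first
    | ring1
    | (field_simp; done)
    | (field_simp; ring1)

theorem AP_E3 (T : ℂ) (i j : Fin 8) : (AP * E 3 T) i j = (EP 3 T * AP) i j := by
  have hp := pc_ne
  revert j
  fin_cases i <;> intro j <;> fin_cases j <;>
    simp [AP, E, EP, Matrix.mul_apply, Fin.sum_univ_eight]
  all_goals first
    | ring1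
    | (field_simp; done)
    | (field_simp; ring1)

theorem AP_E (c : Fin 4) (T : ℂ) : AP * E c T = EP c T * AP := by
  ext i j
  fin_cases c
  · exact AP_E0 T i j
  · exact AP_E1 T i j
  · exact AP_E2 T i j
  · exact AP_E3 T i j

theorem AP_Rf0 (i j : Fin 8) : (AP * Rf 0) i j = (RP 0 * AP) i j := by
  have hp := pc_ne
  revert j
  fin_cases i <;> intro j <;> fin_cases j <;>
    simp [AP, Rf, RP, Matrix.mul_apply, Fin.sum_univ_eight, Matrix.one_apply]
  all_goals first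
    | ring1
    | (field_simp; done)
    | (field_simp; ring1)

theorem AP_Rf1 (i j : Fin 8) : (AP * Rf 1) i j = (RP 1 * AP) i j := by
  have hp := pc_ne
  revert j
  fin_cases i <;> intro j <;> fin_cases j <;>
    simp [AP, Rf, RP, Matrix.mul_apply, Fin.sum_univ_eight, Matrix.one_apply]
  all_goals first
    | ring1
    | (field_simp; done)
    | (field_simp; ring1)

theorem AP_Rf2 (i j : Fin 8) : (AP * Rf 2) i j = (RP 2 * AP) i j := by
  have hp := pc_ne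
  revert j
  fin_cases i <;> intro j <;> fin_cases j <;>
    simp [AP, Rf, RP, Matrix.mul_apply, Fin.sum_univ_eight, Matrix.one_apply]
  all_goals first
    | ring1
    | (field_simp; done)
    | (field_simp; ring1)

theorem AP_Rf3 (i j : Fin 8) : (AP * Rf 3) i j = (RP 3 * AP) i j := by
  have hp := pc_ne
  revert j
  fin_cases i <;> intro j <;> fin_cases j <;>
    simp [AP, Rf, RP, Matrix.mul_apply, Fin.sum_univ_eight, Matrix.one_apply]
  all_goals first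
    | ring1
    | (field_simp; done)
    | (field_simp; ring1)

theorem AP_Rf (q : Fin 4) : AP * Rf q = RP q * AP := by
  ext i j
  fin_cases q
  · exact AP_Rf0 i j
  · exact AP_Rf1 i j
  · exact AP_Rf2 i j
  · exact AP_Rf3 i j

/-- the relation matrices of `adm_glc`, `cj_adm_glc`, .. for the rows `AP` -/
theorem AP_E_APi (c : Fin 4) (T : ℂ) : AP * E c T * APi = EP c T := by
  rw [AP_E, Matrix.mul_assoc, mul_eq_one_comm.1 APi_mul, Matrix.mul_one]

theorem cj_APi : cj APi = APi := by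
  ext i j
  revert j
  fin_cases i <;> intro j <;> fin_cases j <;> simp [APi, cj_apply, conj_pc]

theorem AP_Rf_APi (q : Fin 4) : AP * Rf q * APi = RP q := by
  rw [AP_Rf, Matrix.mul_assoc, mul_eq_one_comm.1 APi_mul, Matrix.mul_one]

theorem cjAP_E_Rf (c : Fin 4) (T : ℂ) :
    cj AP * cj (E c T) * Rf (qc c) * APi = cj (EP c T) * RP (qc c) := by
  rw [← cj_mul, AP_E, cj_mul, cj_AP, Matrix.mul_assoc (cj (EP c T)) AP, AP_Rf,
    Matrix.mul_assoc (cj (EP c T)), Matrix.mul_assoc (RP (qc c)), mul_eq_one_comm.1 APi_mul,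
    Matrix.mul_one]

theorem AP_cjRf_E (c : Fin 4) (T : ℂ) :
    AP * cj (Rf (qc c)) * cj (E c T) * cj APi = cj (RP (qc c)) * cj (EP c T) := by
  have h1 : AP * cj (Rf (qc c)) = cj (RP (qc c)) * AP := by
    conv_lhs => rw [← cj_AP]
    rw [← cj_mul, AP_Rf, cj_mul, cj_AP]
  have h2 : AP * cj (E c T) = cj (EP c T) * AP := by
    conv_lhs => rw [← cj_AP]
    rw [← cj_mul, AP_E, cj_mul, cj_AP]
  rw [h1, Matrix.mul_assoc (cj (RP (qc c))), h2, cj_APi, Matrix.mul_assoc (cj (RP (qc c))),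
    Matrix.mul_assoc (cj (EP c T)), mul_eq_one_comm.1 APi_mul, Matrix.mul_one]

end

end Vale.Agent.P030.H639
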