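import Vale.Agent.P030.H639.N8a
import Vale.Agent.P030.H639.N8b

/-!
# P030, route N, row N8 (3): the relations at the cusps in the adapted basis

Adapted basis `e, a, c, d, h, d+g, A0, A3`, columns `x0, x1, x2, x3-x4, x5, x4, x6, x7`.
-/

open Matrix

namespace Vale.Agent.P030.H639

open Vale.Agent.P030.AR Vale.Agent.P030.H787 Vale.Agent.P030.H265

set_option linter.unusedSimpArgs false
set_option linter.unreachableTactic false
set_option linter.unusedTactic false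

noncomputable section

/-- rows of the adapted basis -/
def AD : Matrix (Fin 8) (Fin 8) ℂ := !![1, 0, 0, 0, 0, 0, 0, 0;
      0, 1, 0, 0, 0, 0, 0, 0;
      0, 0, 1, 0, 0, 0, 0, 0;
      0, 0, 0, 1, 0, 0, 0, 0;
      0, 0, 0, 0, 0, 1, 0, 0;
      0, 0, 0, 1, 1, 0, 0, 0;
      0, 0, 0, 0, 0, 0, 1, 0;
      0, 0, 0, 0, 0, 0, 0, 1]

/-- change of the coordinates -/
def CO : Matrix (Fin 8) (Fin 8) ℂ := !![1, 0, 0, 0, 0, 0, 0, 0;
      0, 1, 0, 0, 0, 0, 0, 0;
      0, 0, 1, 0, 0, 0, 0, 0;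
      0, 0, 0, 1, 0, 0, 0, 0;
      0, 0, 0, -1, 0, 1, 0, 0;
      0, 0, 0, 0, 1, 0, 0, 0;
      0, 0, 0, 0, 0, 0, 1, 0;
      0, 0, 0, 0, 0, 0, 0, 1]

/-- the adapted matrix of eight vectors -/
def ad0 (V : Fin 8 → Fin 8 → ℂ) : Matrix (Fin 8) (Fin 8) ℂ := AD * Matrix.of V * CO

/-- `E c T` in the adapted basis -/
def EA : Fin 4 → ℂ → Matrix (Fin 8) (Fin 8) ℂ
  | 0, T => !![1, 0, 0, 0, 0, 0, 0, 0;
      0, 1, 0, 0, 0, 0, 0, 0;
      0, 0, 1, T, 0, 0, 0, 0;
      0, 0, 0, 1, 0, 0, 0, 0;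
      0, 0, 0, 0, 1, 0, 0, 0;
      0, 0, 0, 0, 0, 1, 0, 0;
      0, 0, 0, 0, 0, 0, 1, 0;
      0, 0, 0, 0, 0, 0, -(2 / pc * T), 1]
  | 1, T => !![1, 0, 0, 0, 0, 0, 0, 0;
      0, 1, 0, -T, 0, T, 0, 0;
      0, 0, 1, -T, 0, T, 0, 0;
      0, 0, 0, 1, 0, 0, 0, 0;
      0, 0, 0, 0, 1, 0, 0, 0;
      0, 0, 0, 0, 0, 1, 0, 0;
      0, 0, 0, 0, 0, 0, 1 - 2 * Complex.I / pc * T, -(1 / pc * T);
      0, 0, 0, 0, 0, 0, -(4 / pc * T), 1 + 2 * Complex.I / pc * T]
  | 2, T => !![1, 0, T, l2 / 2 * T, l2 / 2 * T + T ^ 2 / 2,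
        -((l2 / 2 + Complex.I * pc) * T) - T ^ 2 / 2,
        -(T / 4), Complex.I * T / 4;
      0, 1, 0, T / 2, T / 2, -(T / 2), 0, 0;
      0, 0, 1, 0, T, -T, 0, 0;
      0, 0, 0, 1, 0, 0, 0, 0;
      0, 0, 0, 0, 1, 0, 0, 0;
      0, 0, 0, 0, 0, 1, 0, 0;
      0, 0, 0, 0, 0, 0, 1 - 2 * Complex.I / pc * T, -(2 / pc * T);
      0, 0, 0, 0, 0, 0, -(2 / pc * T), 1 + 2 * Complex.I / pc * T]
  | 3, T => !![1, 0, -T, -(l2 / 2 * T), -(l2 / 2 * T) + T ^ 2 / 2, l2 / 2 * T, T / 4,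
        -(T ^ 2 / (8 * pc));
      0, 1, 0, T / 2, -(T / 2), -(T / 2), 0, 0;
      0, 0, 1, 0, -T, 0, 0, 0;
      0, 0, 0, 1, 0, 0, 0, 0;
      0, 0, 0, 0, 1, 0, 0, 0;
      0, 0, 0, 0, 0, 1, 0, 0;
      0, 0, 0, 0, 0, 0, 1, -(1 / pc * T);
      0, 0, 0, 0, 0, 0, 0, 1]

/-- `Rf q` in the adapted basis -/
def RA : Fin 4 → Matrix (Fin 8) (Fin 8) ℂ
  | 0 => !![1, 0, 0, 0, 0, 0, 0, 0;
            0, 1, 0, 2 * pc * Complex.I, 0, -(2 * pc * Complex.I), 0, 0;
            0, 0, 1, 0, 0, -(2 * pc * Complex.I), 0, 0;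
            0, 0, 0, 1, 0, 0, 0, 0;
            0, 0, 0, 0, 1, 0, 0, 0;
            0, 0, 0, 0, 0, 1, 0, 0;
            0, 0, 0, 0, 0, 0, -3, 2 * Complex.I;
            0, 0, 0, 0, 0, 0, -4 * Complex.I, -3]
  | 1 => !![1, 0, 0, 0, 0, 0, 0, 0;
            0, 1, 0, 0, 0, 0, 0, 0;
            0, 0, 1, -(2 * pc * Complex.I), 0, 0, 0, 0;
            0, 0, 0, 1, 0, 0, 0, 0;
            0, 0, 0, 0, 1, 0, 0, 0;
            0, 0, 0, 0, 0, 1, 0, 0;
            0, 0, 0, 0, 0, 0, 1, 0;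
            0, 0, 0, 0, 0, 0, 4 * Complex.I, 1]
  | 2 => 1
  | 3 => !![1, 0, -(2 * pc * Complex.I), -(pc * Complex.I * l2),
              -(2 * pc * Complex.I * (l2 / 2 - Complex.I * pc)), pc * Complex.I * l2,
              pc * Complex.I / 2, pc / 2;
            0, 1, 0, pc * Complex.I, -(pc * Complex.I), -(pc * Complex.I), 0, 0;
            0, 0, 1, 0, -(2 * pc * Complex.I), 0, 0, 0;
            0, 0, 0, 1, 0, 0, 0, 0;
            0, 0, 0, 0, 1, 0, 0, 0;
            0, 0, 0, 0, 0, 1, 0, 0;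
            0, 0, 0, 0, 0, 0, 1, -2 * Complex.I;
            0, 0, 0, 0, 0, 0, 0, 1]

theorem AD_E0 (T : ℂ) (i j : Fin 8) : (AD * E 0 T) i j = (EA 0 T * AD) i j := by
  revert j
  fin_cases i <;> intro j <;> fin_cases j <;>
    simp [AD, E, EA, Matrix.mul_apply, Fin.sum_univ_eight]
  all_goals ring1

theorem AD_E1 (T : ℂ) (i j : Fin 8) : (AD * E 1 T) i j = (EA 1 T * AD) i j := by
  revert j
  fin_cases i <;> intro j <;> fin_cases j <;>
    simp [AD, E, EA, Matrix.mul_apply, Fin.sum_univ_eight]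
  all_goals ring1

theorem AD_E2 (T : ℂ) (i j : Fin 8) : (AD * E 2 T) i j = (EA 2 T * AD) i j := by
  revert j
  fin_cases i <;> intro j <;> fin_cases j <;>
    simp [AD, E, EA, Matrix.mul_apply, Fin.sum_univ_eight]
  all_goals ring1

theorem AD_E3 (T : ℂ) (i j : Fin 8) : (AD * E 3 T) i j = (EA 3 T * AD) i j := by
  revert j
  fin_cases i <;> intro j <;> fin_cases j <;>
    simp [AD, E, EA, Matrix.mul_apply, Fin.sum_univ_eight]
  all_goals ring1

theorem AD_E (c : Fin 4) (T : ℂ) : AD * E c T = EA c T * AD := by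
  ext i j
  fin_cases c
  · exact AD_E0 T i j
  · exact AD_E1 T i j
  · exact AD_E2 T i j
  · exact AD_E3 T i j

theorem AD_Rf0 (i j : Fin 8) : (AD * Rf 0) i j = (RA 0 * AD) i j := by
  revert j
  fin_cases i <;> intro j <;> fin_cases j <;>
    simp [AD, Rf, RA, Matrix.mul_apply, Fin.sum_univ_eight, Matrix.one_apply]
  all_goals ring1

theorem AD_Rf1 (i j : Fin 8) : (AD * Rf 1) i j = (RA 1 * AD) i j := by
  revert j
  fin_cases i <;> intro j <;> fin_cases j <;>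
    simp [AD, Rf, RA, Matrix.mul_apply, Fin.sum_univ_eight, Matrix.one_apply]
  all_goals ring1

theorem AD_Rf2 (i j : Fin 8) : (AD * Rf 2) i j = (RA 2 * AD) i j := by
  revert j
  fin_cases i <;> intro j <;> fin_cases j <;>
    simp [AD, Rf, RA, Matrix.mul_apply, Fin.sum_univ_eight, Matrix.one_apply]
  all_goals ring1

theorem AD_Rf3 (i j : Fin 8) : (AD * Rf 3) i j = (RA 3 * AD) i j := by
  revert j
  fin_cases i <;> intro j <;> fin_cases j <;>
    simp [AD, Rf, RA, Matrix.mul_apply, Fin.sum_univ_eight, Matrix.one_apply]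
  all_goals ring1

theorem AD_Rf (q : Fin 4) : AD * Rf q = RA q * AD := by
  ext i j
  fin_cases q
  · exact AD_Rf0 i j
  · exact AD_Rf1 i j
  · exact AD_Rf2 i j
  · exact AD_Rf3 i j

theorem ad0_rel {X XA : Matrix (Fin 8) (Fin 8) ℂ} (hX : AD * X = XA * AD)
    {V W : Fin 8 → Fin 8 → ℂ} (h : ∀ i, V i = ∑ k, X i k • W k) : ad0 V = XA * ad0 W := by
  have h1 : Matrix.of V = X * Matrix.of W := by
    ext i j
    rw [Matrix.of_apply, h i, Matrix.mul_apply]
    simp [Finset.sum_apply]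
  unfold ad0
  rw [h1, ← Matrix.mul_assoc AD X, hX]
  simp only [Matrix.mul_assoc]

/-- **the flat matrix and the log-free matrix** -/
theorem ad0_gl (c : Fin 4) (T : ℂ) {t : ℂ} (ht : ‖t‖ < 1) (ht0 : t ≠ 0) :
    ad0 (gl c T t) = EA c T * ad0 (gl c 0 t) :=
  ad0_rel (AD_E c T) (gl_E c T ht ht0)

/-! ### conjugation of the log-free parts -/

theorem conj_Gf (c : Fin 4) (t : ℂ) (m j : Fin 8) :
    (starRingEnd ℂ) (Gf c ((starRingEnd ℂ) t) m j) = Gf c t m j := by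
  have hd : ∀ j, (starRingEnd ℂ) (dv j) = dv j := by
    intro j; fin_cases j <;> simp [dv, Pi.single_apply]
  have hg : ∀ j, (starRingEnd ℂ) (gv j) = gv j := by
    intro j; fin_cases j <;> simp [gv, Pi.single_apply]
  have hh : ∀ j, (starRingEnd ℂ) (hv j) = hv j := by
    intro j; fin_cases j <;> simp [hv, Pi.single_apply]
  have hs : ∀ j, (starRingEnd ℂ) (sv7 j) = sv7 j := by
    intro j; fin_cases j <;> simp [sv7, Pi.single_apply]
  fin_cases c <;> fin_cases m <;>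
    simp [Gf, conj_tupC, conj_evt, conj_evq, hd, hg, hh, hs, map_ofNat]

/-- the interval on which the logarithm at the cusp is real -/
def qc : Fin 4 → Fin 4 := ![2, 1, 0, 2]

theorem conj_Pm0_0 (t : ℂ) (i j : Fin 8) :
    (starRingEnd ℂ) (Pm 0 0 ((starRingEnd ℂ) t) i j) = (Rf 2 * Pm 0 0 t) i j := by
  have hI : Complex.I ^ 2 = -1 := Complex.I_sq
  have hI3 : Complex.I ^ 3 = -Complex.I := by rw [pow_succ, hI]; ring
  revert j
  fin_cases i <;> intro j <;> fin_cases j <;>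
    simp [Pm, Rf, Matrix.mul_apply, Fin.sum_univ_eight, Matrix.one_apply, conj_pc, conj_l2,
      conj_xc, map_ofNat]
  all_goals first
    | ring1
    | (ring_nf; simp only [hI, hI3]; ring1)
    | (field_simp; ring_nf; simp only [hI, hI3]; ring1)

theorem conj_Pm0_1 (t : ℂ) (i j : Fin 8) :
    (starRingEnd ℂ) (Pm 1 0 ((starRingEnd ℂ) t) i j) = (Rf 1 * Pm 1 0 t) i j := by
  have hI : Complex.I ^ 2 = -1 := Complex.I_sq
  have hI3 : Complex.I ^ 3 = -Complex.I := by rw [pow_succ, hI]; ring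
  revert j
  fin_cases i <;> intro j <;> fin_cases j <;>
    simp [Pm, Rf, Matrix.mul_apply, Fin.sum_univ_eight, Matrix.one_apply, conj_pc, conj_l2,
      conj_xc, map_ofNat]
  all_goals first
    | ring1
    | (ring_nf; simp only [hI, hI3]; ring1)
    | (field_simp; ring_nf; simp only [hI, hI3]; ring1)

theorem conj_Pm0_2 (t : ℂ) (i j : Fin 8) :
    (starRingEnd ℂ) (Pm 2 0 ((starRingEnd ℂ) t) i j) = (Rf 0 * Pm 2 0 t) i j := by
  have hI : Complex.I ^ 2 = -1 := Complex.I_sq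
  have hI3 : Complex.I ^ 3 = -Complex.I := by rw [pow_succ, hI]; ring
  revert j
  fin_cases i <;> intro j <;> fin_cases j <;>
    simp [Pm, Rf, Matrix.mul_apply, Fin.sum_univ_eight, Matrix.one_apply, conj_pc, conj_l2,
      conj_xc, map_ofNat]
  all_goals first
    | ring1
    | (ring_nf; simp only [hI, hI3]; ring1)
    | (field_simp; ring_nf; simp only [hI, hI3]; ring1)

theorem conj_Pm0_3 (t : ℂ) (i j : Fin 8) :
    (starRingEnd ℂ) (Pm 3 0 ((starRingEnd ℂ) t) i j) = (Rf 2 * Pm 3 0 t) i j := by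
  have hI : Complex.I ^ 2 = -1 := Complex.I_sq
  have hI3 : Complex.I ^ 3 = -Complex.I := by rw [pow_succ, hI]; ring
  revert j
  fin_cases i <;> intro j <;> fin_cases j <;>
    simp [Pm, Rf, Matrix.mul_apply, Fin.sum_univ_eight, Matrix.one_apply, conj_pc, conj_l2,
      conj_xc, map_ofNat]
  all_goals first
    | ring1
    | (ring_nf; simp only [hI, hI3]; ring1)
    | (field_simp; ring_nf; simp only [hI, hI3]; ring1)

theorem conj_Pm0 (c : Fin 4) (t : ℂ) (i j : Fin 8) :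
    (starRingEnd ℂ) (Pm c 0 ((starRingEnd ℂ) t) i j) = (Rf (qc c) * Pm c 0 t) i j := by
  fin_cases c
  · exact conj_Pm0_0 t i j
  · exact conj_Pm0_1 t i j
  · exact conj_Pm0_2 t i j
  · exact conj_Pm0_3 t i j

/-- **reflection of the log-free parts** -/
theorem conj_gl0 (c : Fin 4) {t : ℂ} (ht : ‖t‖ < 1) (ht0 : t ≠ 0) (i j : Fin 8) :
    (starRingEnd ℂ) (gl c 0 ((starRingEnd ℂ) t) i j) = ∑ k, Rf (qc c) i k * gl c 0 t k j := by
  have h1 : ‖(starRingEnd ℂ) t‖ < 1 := by rwa [Complex.norm_conj]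
  have h2 : (starRingEnd ℂ) t ≠ 0 := by simpa using ht0
  rw [gl_eq c 0 h1 h2]
  simp_rw [gl_eq c 0 ht ht0]
  simp only [Finset.sum_apply, Pi.smul_apply, smul_eq_mul, map_sum, map_mul, conj_Pm0, conj_Gf,
    Finset.mul_sum]
  rw [Finset.sum_comm]
  refine Finset.sum_congr rfl fun m _ => ?_
  rw [Matrix.mul_apply, Finset.sum_mul]
  exact Finset.sum_congr rfl fun k _ => by ring

theorem cj_AD : cj AD = AD := by
  ext i j
  revert j
  fin_cases i <;> intro j <;> fin_cases j <;> simp [AD, cj_apply]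

theorem cj_CO : cj CO = CO := by
  ext i j
  revert j
  fin_cases i <;> intro j <;> fin_cases j <;> simp [CO, cj_apply]

/-- the mirror of the log-free matrix -/
theorem cj_ad0_gl0 (c : Fin 4) {t : ℂ} (ht : ‖t‖ < 1) (ht0 : t ≠ 0) :
    cj (ad0 (gl c 0 ((starRingEnd ℂ) t))) = RA (qc c) * ad0 (gl c 0 t) := by
  have h1 : cj (Matrix.of (gl c 0 ((starRingEnd ℂ) t))) = Rf (qc c) * Matrix.of (gl c 0 t) := by
    ext i j
    rw [cj_apply, Matrix.of_apply, conj_gl0 c ht ht0, Matrix.mul_apply]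
    rfl
  unfold ad0
  rw [cj_mul, cj_mul, h1, cj_AD, cj_CO, ← Matrix.mul_assoc AD, AD_Rf]
  simp only [Matrix.mul_assoc]

/-- **the mirror flat matrix** : `T'` = the logarithm at the mirror point -/
theorem cj_ad0_gl (c : Fin 4) (T : ℂ) {t : ℂ} (ht : ‖t‖ < 1) (ht0 : t ≠ 0) :
    cj (ad0 (gl c T ((starRingEnd ℂ) t))) = cj (EA c T) * RA (qc c) * ad0 (gl c 0 t) := by
  have h1 : ‖(starRingEnd ℂ) t‖ < 1 := by rwa [Complex.norm_conj]
  have h2 : (starRingEnd ℂ) t ≠ 0 := by simpa using ht0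
  rw [ad0_gl c T h1 h2, cj_mul, cj_ad0_gl0 c ht ht0, Matrix.mul_assoc]

/-! ### inverses -/

theorem E_neg (c : Fin 4) (T : ℂ) : E c (-T) * E c T = 1 := by
  rw [← E_add, neg_add_cancel, E_zero]

theorem EA_neg0 (T : ℂ) (i j : Fin 8) :
    (EA 0 (-T) * EA 0 T) i j = (1 : Matrix (Fin 8) (Fin 8) ℂ) i j := by
  have hp := pc_ne
  have hI : Complex.I ^ 2 = -1 := Complex.I_sq
  have hI3 : Complex.I ^ 3 = -Complex.I := by rw [pow_succ, hI]; ring
  have hI4 : Complex.I ^ 4 = 1 := by rw [show (4 : ℕ) = 2 * 2 from rfl, pow_mul, hI]; ring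
  revert j
  fin_cases i <;> intro j <;> fin_cases j <;>
    simp [EA, Matrix.mul_apply, Fin.sum_univ_eight, Matrix.one_apply]
  all_goals first
    | ring1
    | (field_simp; done)
    | (field_simp; ring1)
    | (field_simp; ring_nf; simp only [hI, hI3, hI4]; ring1)
    | (ring_nf; simp only [hI, hI3, hI4]; ring1)

theorem EA_neg1 (T : ℂ) (i j : Fin 8) :
    (EA 1 (-T) * EA 1 T) i j = (1 : Matrix (Fin 8) (Fin 8) ℂ) i j := by
  have hp := pc_ne
  have hI : Complex.I ^ 2 = -1 := Complex.I_sq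
  have hI3 : Complex.I ^ 3 = -Complex.I := by rw [pow_succ, hI]; ring
  have hI4 : Complex.I ^ 4 = 1 := by rw [show (4 : ℕ) = 2 * 2 from rfl, pow_mul, hI]; ring
  revert j
  fin_cases i <;> intro j <;> fin_cases j <;>
    simp [EA, Matrix.mul_apply, Fin.sum_univ_eight, Matrix.one_apply]
  all_goals first
    | ring1
    | (field_simp; done)
    | (field_simp; ring1)
    | (field_simp; ring_nf; simp only [hI, hI3, hI4]; ring1)
    | (ring_nf; simp only [hI, hI3, hI4]; ring1)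

theorem EA_neg2 (T : ℂ) (i j : Fin 8) :
    (EA 2 (-T) * EA 2 T) i j = (1 : Matrix (Fin 8) (Fin 8) ℂ) i j := by
  have hp := pc_ne
  have hI : Complex.I ^ 2 = -1 := Complex.I_sq
  have hI3 : Complex.I ^ 3 = -Complex.I := by rw [pow_succ, hI]; ring
  have hI4 : Complex.I ^ 4 = 1 := by rw [show (4 : ℕ) = 2 * 2 from rfl, pow_mul, hI]; ring
  revert j
  fin_cases i <;> intro j <;> fin_cases j <;>
    simp [EA, Matrix.mul_apply, Fin.sum_univ_eight, Matrix.one_apply]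
  all_goals first
    | ring1
    | (field_simp; done)
    | (field_simp; ring1)
    | (field_simp; ring_nf; simp only [hI, hI3, hI4]; ring1)
    | (ring_nf; simp only [hI, hI3, hI4]; ring1)

theorem EA_neg3 (T : ℂ) (i j : Fin 8) :
    (EA 3 (-T) * EA 3 T) i j = (1 : Matrix (Fin 8) (Fin 8) ℂ) i j := by
  have hp := pc_ne
  have hI : Complex.I ^ 2 = -1 := Complex.I_sq
  have hI3 : Complex.I ^ 3 = -Complex.I := by rw [pow_succ, hI]; ring
  have hI4 : Complex.I ^ 4 = 1 := by rw [show (4 : ℕ) = 2 * 2 from rfl, pow_mul, hI]; ring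
  revert j
  fin_cases i <;> intro j <;> fin_cases j <;>
    simp [EA, Matrix.mul_apply, Fin.sum_univ_eight, Matrix.one_apply]
  all_goals first
    | ring1
    | (field_simp; done)
    | (field_simp; ring1)
    | (field_simp; ring_nf; simp only [hI, hI3, hI4]; ring1)
    | (ring_nf; simp only [hI, hI3, hI4]; ring1)

theorem EA_neg (c : Fin 4) (T : ℂ) : EA c (-T) * EA c T = 1 := by
  ext i j
  fin_cases c
  · exact EA_neg0 T i j
  · exact EA_neg1 T i j
  · exact EA_neg2 T i j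
  · exact EA_neg3 T i j

theorem RA_inv0 (i j : Fin 8) :
    (cj (RA 0) * RA 0) i j = (1 : Matrix (Fin 8) (Fin 8) ℂ) i j := by
  have hI : Complex.I ^ 2 = -1 := Complex.I_sq
  have hI3 : Complex.I ^ 3 = -Complex.I := by rw [pow_succ, hI]; ring
  revert j
  fin_cases i <;> intro j <;> fin_cases j <;>
    simp [RA, cj_apply, Matrix.mul_apply, Fin.sum_univ_eight, Matrix.one_apply, conj_pc, conj_l2,
      map_ofNat]
  all_goals first
    | ring1
    | (ring_nf; simp only [hI, hI3]; ring1)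
    | (field_simp; ring_nf; simp only [hI, hI3]; ring1)

theorem RA_inv1 (i j : Fin 8) :
    (cj (RA 1) * RA 1) i j = (1 : Matrix (Fin 8) (Fin 8) ℂ) i j := by
  have hI : Complex.I ^ 2 = -1 := Complex.I_sq
  have hI3 : Complex.I ^ 3 = -Complex.I := by rw [pow_succ, hI]; ring
  revert j
  fin_cases i <;> intro j <;> fin_cases j <;>
    simp [RA, cj_apply, Matrix.mul_apply, Fin.sum_univ_eight, Matrix.one_apply, conj_pc, conj_l2,
      map_ofNat]
  all_goals first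
    | ring1
    | (ring_nf; simp only [hI, hI3]; ring1)
    | (field_simp; ring_nf; simp only [hI, hI3]; ring1)

theorem RA_inv2 (i j : Fin 8) :
    (cj (RA 2) * RA 2) i j = (1 : Matrix (Fin 8) (Fin 8) ℂ) i j := by
  have hI : Complex.I ^ 2 = -1 := Complex.I_sq
  have hI3 : Complex.I ^ 3 = -Complex.I := by rw [pow_succ, hI]; ring
  revert j
  fin_cases i <;> intro j <;> fin_cases j <;>
    simp [RA, cj_apply, Matrix.mul_apply, Fin.sum_univ_eight, Matrix.one_apply, conj_pc, conj_l2,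
      map_ofNat]
  all_goals first
    | ring1
    | (ring_nf; simp only [hI, hI3]; ring1)
    | (field_simp; ring_nf; simp only [hI, hI3]; ring1)

theorem RA_inv3 (i j : Fin 8) :
    (cj (RA 3) * RA 3) i j = (1 : Matrix (Fin 8) (Fin 8) ℂ) i j := by
  have hI : Complex.I ^ 2 = -1 := Complex.I_sq
  have hI3 : Complex.I ^ 3 = -Complex.I := by rw [pow_succ, hI]; ring
  revert j
  fin_cases i <;> intro j <;> fin_cases j <;>
    simp [RA, cj_apply, Matrix.mul_apply, Fin.sum_univ_eight, Matrix.one_apply, conj_pc, conj_l2,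
      map_ofNat]
  all_goals first
    | ring1
    | (ring_nf; simp only [hI, hI3]; ring1)
    | (field_simp; ring_nf; simp only [hI, hI3]; ring1)

theorem RA_inv (q : Fin 4) : cj (RA q) * RA q = 1 := by
  ext i j
  fin_cases q
  · exact RA_inv0 i j
  · exact RA_inv1 i j
  · exact RA_inv2 i j
  · exact RA_inv3 i j

/-- the log-free matrix from the flat matrix -/
theorem ad0_gl0 (c : Fin 4) (T : ℂ) {t : ℂ} (ht : ‖t‖ < 1) (ht0 : t ≠ 0) :
    ad0 (gl c 0 t) = EA c (-T) * ad0 (gl c T t) := by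
  rw [ad0_gl c T ht ht0, ← Matrix.mul_assoc, EA_neg, Matrix.one_mul]

/-- the log-free matrix from the mirror flat matrix -/
theorem ad0_gl0_cj (c : Fin 4) (T : ℂ) {t : ℂ} (ht : ‖t‖ < 1) (ht0 : t ≠ 0) :
    ad0 (gl c 0 t) =
      cj (RA (qc c)) * cj (EA c (-T)) * cj (ad0 (gl c T ((starRingEnd ℂ) t))) := by
  have h1 : cj (EA c (-T)) * cj (EA c T) = 1 := by
    rw [← cj_mul, EA_neg]
    ext i j
    rw [cj_apply, Matrix.one_apply]
    split_ifs <;> simp
  rw [cj_ad0_gl c T ht ht0]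
  calc ad0 (gl c 0 t) = (cj (RA (qc c)) * ((cj (EA c (-T)) * cj (EA c T)) * RA (qc c))) *
        ad0 (gl c 0 t) := by rw [h1, Matrix.one_mul, RA_inv, Matrix.one_mul]
    _ = _ := by simp only [Matrix.mul_assoc]

end

end Vale.Agent.P030.H639
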