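import Vale.Agent.P030.H265.FlatQ
import Vale.Agent.P030.H336.PatFlat
import Vale.Agent.P030.H352.Pk

/-!
# P030, route N: the cusp discs for an arbitrary base change, frames in `Cf` (helper639)

`A, A', Q` = real base change (helper265's `RCh`); `FD c : FrD Cf` = constants of the disc frames,
`RQ q` = the reflection relations in `Cf`.  Everything is reduced to the Boolean check `chkD`;
result: `discG : DiscPk`.
-/

open Set Filter Topology Matrix
open scoped ComplexConjugate

namespace Vale.Agent.P030.H639.V2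

open Vale.Agent.P030.H124 Vale.Agent.P030.H265 Vale.Agent.P030.AR Vale.Agent.P030.H336
open Vale.Agent.P030.H352 Vale.Agent.P030.T Vale.Agent.P030.H580

/-! ### the letter `T` -/

/-- no letter `T` -/
def noT (x : Cf) : Bool := x.t.all fun m => m.c == 0

theorem val_noT {x : Cf} (h : noT x = true) (ι p w T T' : ℂ) :
    x.val ι p w T = x.val ι p w T' := by
  have : ∀ l : List Tm, (l.all fun m => m.c == 0) = true →
      evL ι p w T l = evL ι p w T' l := by
    intro l
    induction l with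
    | nil => intro _; rfl
    | cons y l ih =>
      intro hl
      rw [List.all_cons, Bool.and_eq_true, beq_iff_eq] at hl
      simp only [evL, Tm.ev, hl.1, ih hl.2, pow_zero]
  rw [Cf.val_def, Cf.val_def, this x.t h]

/-- `T ↦ -T` -/
def nT (x : Cf) : Cf :=
  ⟨x.d, x.t.map fun m => if m.c % 2 = 0 then m else ⟨m.a, m.b, m.c, -m.re, -m.im⟩⟩

theorem val_nT (x : Cf) (ι p w T : ℂ) : (nT x).val ι p w T = x.val ι p w (-T) := by
  have : ∀ l : List Tm, evL ι p w T
      (l.map fun m => if m.c % 2 = 0 then m else ⟨m.a, m.b, m.c, -m.re, -m.im⟩) =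
      evL ι p w (-T) l := by
    intro l
    induction l with
    | nil => rfl
    | cons y l ih =>
      simp only [List.map_cons, evL, ih]
      congr 1
      split_ifs with h
      · have : Even y.c := Nat.even_iff.2 h
        simp only [Tm.ev, this.neg_pow]
      · have : Odd y.c := Nat.odd_iff.2 (by omega)
        simp only [Tm.ev, this.neg_pow]
        push_cast
        ring
  rw [Cf.val_def, Cf.val_def, nT, this x.t]

/-- all constants of a cell are free of `T` -/
def noTF (F : FrD Cf) : Bool := (F.up.all fun r => r.all noT) && (noT F.kl.1 && noT F.kl.2)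

theorem noT_get {l : List Cf} (h : l.all noT = true) (i : ℕ) :
    noT (H336.get cfO l i) = true := by
  unfold H336.get
  rw [List.getD_eq_getElem?_getD]
  cases hi : l[i]? with
  | none => rfl
  | some x =>
    rw [List.all_eq_true] at h
    exact h x (List.mem_of_getElem? hi)

theorem toB_noT {F : FrD Cf} (h : noTF F = true) (T T' : ℂ) :
    toB cfO (cv T) F = toB cfO (cv T') F := by
  simp only [noTF, Bool.and_eq_true] at h
  obtain ⟨h1, h2, h3⟩ := h
  funext b i
  have e : ∀ c k : ℕ, cv T (H336.get cfO (F.up.getD c []) k) =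
      cv T' (H336.get cfO (F.up.getD c []) k) := by
    intro c k
    refine val_noT (noT_get ?_ k) _ _ _ _ _
    rw [List.getD_eq_getElem?_getD]
    cases hi : F.up[c]? with
    | none => rfl
    | some x =>
      rw [List.all_eq_true] at h1
      exact h1 x (List.mem_of_getElem? hi)
  have e1 : cv T F.kl.1 = cv T' F.kl.1 := val_noT h2 _ _ _ _ _
  have e2 : cv T F.kl.2 = cv T' F.kl.2 := val_noT h3 _ _ _ _ _
  simp only [toB, Bf, e, e1, e2]

/-! ### the check -/

/-- entry `i` of the row `b < 6` of a cell -/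
def ent (F : FrD Cf) (b i : ℕ) : Cf :=
  if i < b then cz else if i = b then cu else H336.get cfO (F.up.getD b []) (i - b - 1)

/-- the `K`-lines of the discs (`H352.kD`) -/
def kDf : Fin 4 → Cf × Cf := ![(cu, cz), (cI 2 1, cu), (cu, cI (-1) 1), (cz, cu)]

/-- the rows of the disc frames are real -/
def chkR (R : List (List Cf)) (F : FrD Cf) : Bool :=
  (List.range 6).all fun b => Nat.ble (F.up.getD b []).length (7 - b) &&
    (List.range 8).all fun i =>
      ((H336.get cfO (beta cfO F R b) i).add (ent F b i).cj.neg).isZ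

/-- no pole at `c1` -/
def chkP (F : FrD Cf) : Bool :=
  (List.range 6).all fun b => ((ent F b 6).add ((cI 2 1).mul (ent F b 7)).neg).isZ

/-- the complete check of the disc frames -/
def chkD (RQ : Fin 4 → List (List Cf)) (FD : Fin 4 → FrD Cf) : Bool :=
  chkR (RQ 2) (FD 0) && (chkR (RQ 1) (FD 1) && (chkR (RQ 0) (FD 2) && (chkR (RQ 2) (FD 3) &&
    chkP (FD 1))))

theorem toB_ent {F : FrD Cf} {b i : Fin 8} (hb : b < 6) (T : ℂ) :
    toB cfO (cv T) F b i = cv T (ent F b i) := by
  rw [toB_low F hb]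
  unfold Bf ent
  split_ifs
  · exact (ev_cv T).zero.symm
  · exact (ev_cv T).one.symm
  · rfl

variable {A A' Q : Matrix (Fin 8) (Fin 8) ℂ}

/-- `B * A` in the two last columns -/
theorem BA_last (h : RCh A A' Q) {κ : ℂ} (h66 : A 6 6 = κ) (h77 : A 7 7 = κ) (h67 : A 6 7 = 0)
    (h76 : A 7 6 = 0) (B : Matrix (Fin 8) (Fin 8) ℂ) (b : Fin 8) :
    (B * A) b 6 = κ * B b 6 ∧ (B * A) b 7 = κ * B b 7 := by
  have h0 : ∀ i j : Fin 8, i < 6 → (j = 6 ∨ j = 7) → A i j = 0 := by
    intro i j hi hj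
    refine h.bch.A0 i j ?_
    rcases hj with rfl | rfl <;> revert i <;> decide
  constructor
  · rw [Matrix.mul_apply, Fin.sum_univ_eight, h0 0 6 (by decide) (Or.inl rfl),
      h0 1 6 (by decide) (Or.inl rfl), h0 2 6 (by decide) (Or.inl rfl),
      h0 3 6 (by decide) (Or.inl rfl), h0 4 6 (by decide) (Or.inl rfl),
      h0 5 6 (by decide) (Or.inl rfl), h66, h76]
    ring
  · rw [Matrix.mul_apply, Fin.sum_univ_eight, h0 0 7 (by decide) (Or.inr rfl),
      h0 1 7 (by decide) (Or.inr rfl), h0 2 7 (by decide) (Or.inr rfl),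
      h0 3 7 (by decide) (Or.inr rfl), h0 4 7 (by decide) (Or.inr rfl),
      h0 5 7 (by decide) (Or.inr rfl), h67, h77]
    ring

theorem cv_kDf (c : Fin 4) : cv 0 (kDf c).1 = (kD c).1 ∧ cv 0 (kDf c).2 = (kD c).2 := by
  have h0 : cv 0 cz = 0 := Cf.val_zero
  have h1 : cv 0 cu = 1 := Cf.val_one
  have h2 : cv 0 (cI 2 1) = 2 * Complex.I := by
    simp [cv, cI, Cf.val_def, H124.evL, H124.Tm.ev]
  have h3 : cv 0 (cI (-1) 1) = -Complex.I := by
    simp [cv, cI, Cf.val_def, H124.evL, H124.Tm.ev]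
  fin_cases c
  · exact ⟨h1, h0⟩
  · exact ⟨h2, h1⟩
  · exact ⟨h1, h3⟩
  · exact ⟨h0, h1⟩

/-- the constants of the disc frames -/
noncomputable def BD (FD : Fin 4 → FrD Cf) (c : Fin 4) : Matrix (Fin 8) (Fin 8) ℂ :=
  toB cfO (cv 0) (FD c)

variable {FD : Fin 4 → FrD Cf} {RQ : Fin 4 → List (List Cf)}

theorem chkD_R (h : chkD RQ FD = true) (c : Fin 4) :
    chkR (RQ (H352.qc c)) (FD c) = true := by
  simp only [chkD, Bool.and_eq_true] at h
  fin_cases c
  · exact h.1
  · exact h.2.1
  · exact h.2.2.1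
  · exact h.2.2.2.1

theorem fitG (h : RCh A A' Q) (hc : chkD RQ FD = true) (hk : ∀ c, (FD c).kl = kDf c)
    (c : Fin 4) : Fit c A (BD FD c) where
  cst := cst_toB _ _ _
  kv := by
    obtain ⟨κ, hκ, h66, h77, h67, h76⟩ := h.k
    refine ⟨κ, hκ, ?_, ?_⟩
    · rw [(BA_last h h66 h77 h67 h76 _ 6).1, BD, toB_six_six, hk, (cv_kDf c).1]
    · rw [(BA_last h h66 h77 h67 h76 _ 6).2, BD, toB_six_seven, hk, (cv_kDf c).2]
  pole := by
    rintro rfl b hb
    obtain ⟨κ, hκ, h66, h77, h67, h76⟩ := h.k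
    rw [(BA_last h h66 h77 h67 h76 _ b).1, (BA_last h h66 h77 h67 h76 _ b).2]
    simp only [chkD, chkP, Bool.and_eq_true, List.all_eq_true, List.mem_range] at hc
    have hb8 : (b : ℕ) < 6 := by exact_mod_cast hb
    have h1 := (ev_cv 0).isZ _ (hc.2.2.2.2 b hb8)
    have e1 : cv 0 ((ent (FD 1) b 6).add ((cI 2 1).mul (ent (FD 1) b 7)).neg) =
        cv 0 (ent (FD 1) b 6) + -(cv 0 (cI 2 1) * cv 0 (ent (FD 1) b 7)) := by
      rw [← (ev_cv 0).mul, ← (ev_cv 0).neg, ← (ev_cv 0).add]
      rfl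
    rw [e1] at h1
    have h2 : cv 0 (cI 2 1) = 2 * Complex.I := by
      simp [cv, cI, Cf.val_def, H124.evL, H124.Tm.ev]
    have e6 : BD FD 1 b 6 = cv 0 (ent (FD 1) b 6) := toB_ent hb 0
    have e7 : BD FD 1 b 7 = cv 0 (ent (FD 1) b 7) := toB_ent hb 0
    rw [e6, e7]
    rw [h2] at h1
    linear_combination κ * h1

/-- the rows are real -/
theorem realG (h : RCh A A' Q) (hc : chkD RQ FD = true)
    (hRQ : ∀ q (i j : Fin 8), cv 0 (H336.get cfO ((RQ q).getD i []) j) =
      (A * cj (Rf q) * A') i j) (c : Fin 4) {b : Fin 8} (hb : b < 6) (m : Fin 8) :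
    ∑ k, conj ((BD FD c * A) b k) * Rf (H352.qc c) k m = (BD FD c * A) b m := by
  have hb8 : (b : ℕ) < 6 := by exact_mod_cast hb
  have h0 := chkD_R hc c
  simp only [chkR, Bool.and_eq_true, List.all_eq_true, List.mem_range] at h0
  obtain ⟨hl, h1⟩ := h0 b hb8
  have h2 : ∀ i : Fin 8, (BD FD c * (A * cj (Rf (H352.qc c)) * A')) b i =
      conj (BD FD c b i) := by
    intro i
    have h3 := (ev_cv 0).isZ _ (h1 i i.isLt)
    have e1 : cv 0 ((H336.get cfO (beta cfO (FD c) (RQ (H352.qc c)) b) i).add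
        (ent (FD c) b i).cj.neg) =
        cv 0 (H336.get cfO (beta cfO (FD c) (RQ (H352.qc c)) b) i) +
          -conj (cv 0 (ent (FD c) b i)) := by
      rw [← cv_cj, ← (ev_cv 0).neg, ← (ev_cv 0).add]
      rfl
    rw [e1, ev_beta (ev_cv 0) (FD c) _ b hb (Nat.le_of_ble_eq_true hl)] at h3
    rw [Matrix.mul_apply, BD, toB_ent hb 0]
    simp only [hRQ] at h3
    linear_combination h3
  -- the whole row as a vector
  have h4 : BD FD c b ᵥ* (A * cj (Rf (H352.qc c)) * A') = fun i => conj (BD FD c b i) := by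
    funext i
    rw [← h2 i]
    rfl
  have h5 : BD FD c b ᵥ* (A * cj (Rf (H352.qc c))) = (fun i => conj (BD FD c b i)) ᵥ* A := by
    rw [← h4, Matrix.vecMul_vecMul, Matrix.mul_assoc _ A' A, h.inv, Matrix.mul_one]
  have h6 := congrFun h5 m
  have e1 : (BD FD c * A) b m = conj (((fun i => conj (BD FD c b i)) ᵥ* A) m) := by
    have hA : ∀ i, conj (A i m) = A i m := fun i => congrFun (congrFun h.realA i) m
    simp only [Matrix.mul_apply, Matrix.vecMul, dotProduct, map_sum, map_mul, Complex.conj_conj,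
      hA]
  rw [e1, ← h6, ← Matrix.vecMul_vecMul]
  simp only [Matrix.vecMul, dotProduct, map_sum, map_mul, cj_apply, Complex.conj_conj,
    Matrix.mul_apply]

/-- **the disc frames are real** -/
theorem Sd_real (h : RCh A A' Q) {B : Matrix (Fin 8) (Fin 8) ℂ} {c : Fin 4} (hB : Fit c A B)
    (hr : ∀ b : Fin 8, b < 6 → ∀ m, ∑ k, conj ((B * A) b k) * Rf (H352.qc c) k m = (B * A) b m)
    (t : ℂ) (b j : Fin 8) : conj (Sd A Q B c (conj t) b j) = Sd A Q B c t b j := by
  by_cases hb : b < 6
  · rw [Sd_lt hb, Sd_lt hb, map_sum]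
    refine Finset.sum_congr rfl fun l _ => ?_
    have hQ : conj (Q l j) = Q l j := congrFun (congrFun h.realQ l) j
    rw [map_mul, hQ, map_sum]
    congr 1
    have h1 : ∀ k, conj ((B * A) b k * glc c 0 (conj t) k l) =
        ∑ m, conj ((B * A) b k) * Rf (H352.qc c) k m * glc c 0 t m l := by
      intro k
      rw [map_mul, conj_glc, Finset.mul_sum]
      exact Finset.sum_congr rfl fun m _ => by ring
    rw [Finset.sum_congr rfl fun k _ => h1 k, Finset.sum_comm]
    refine Finset.sum_congr rfl fun m _ => ?_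
    rw [← Finset.sum_mul, hr b hb m]
  · have : b = 6 ∨ b = 7 := by omega
    rcases this with rfl | rfl
    · rw [Sd_six h.bch hB, Sd_six h.bch hB]
      simp only [Pi.add_apply, Pi.smul_apply, smul_eq_mul, map_add, map_mul, map_div₀, conj_kap,
        conj_single]
    · unfold Sd
      simp only [frm_seven]
      exact conj_single 7 j

/-- the limit at infinity in the `S`-plane -/
theorem tendsto_tz3 : Tendsto (fun z => tz 3 z) (cocompact ℂ) (nhdsWithin 0 {0}ᶜ) := by
  have h1 : Tendsto yz (cocompact ℂ) (Bornology.cobounded ℂ) := by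
    rw [← tendsto_norm_atTop_iff_cobounded]
    have h2 : Tendsto (fun z : ℂ => 2 * ‖z‖ - 1) (cocompact ℂ) atTop :=
      tendsto_atTop_add_const_right _ _
        (Tendsto.const_mul_atTop two_pos (tendsto_norm_cocompact_atTop))
    refine tendsto_atTop_mono (fun z => ?_) h2
    have h3 := norm_sub_norm_le (2 * z) 1
    have h4 : ‖(2 : ℂ) * z - 1‖ = ‖yz z‖ := by
      rw [← norm_neg]; unfold yz; congr 1; ring
    rw [h4, norm_mul] at h3
    simpa using h3
  have h6 : (fun z => tz 3 z) = fun z => (yz z)⁻¹ := by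
    funext z; change 1 / yz z = _; rw [one_div]
  rw [h6]
  refine tendsto_nhdsWithin_iff.2 ⟨?_, ?_⟩
  · exact tendsto_inv₀_cobounded.comp h1
  · have h7 : ∀ᶠ z in cocompact ℂ, 1 < ‖yz z‖ :=
      (tendsto_norm_cobounded_atTop.comp h1).eventually_gt_atTop 1
    filter_upwards [h7] with z hz
    refine inv_ne_zero ?_
    intro h0
    rw [h0, norm_zero] at hz
    linarith

/-- **the four disc frames** -/
noncomputable def discG (h : RCh A A' Q) (hc : chkD RQ FD = true)
    (hk : ∀ c, (FD c).kl = kDf c)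
    (hRQ : ∀ q (i j : Fin 8), cv 0 (H336.get cfO ((RQ q).getD i []) j) =
      (A * cj (Rf q) * A') i j) : DiscPk where
  S := fun c z => Sd A Q (BD FD c) c (tz c z)
  uni := fun c z _ => Sd_unitri h.bch (cst_toB _ _ _) c _
  hol := fun c b b' => (Sd_diff h.bch (fitG h hc hk c) (diff_tz c) (fun _ hz => norm_tz_lt hz)
    (fun hc3 z hz => by subst hc3; exact tz3_ne hz) b b').mono fun _ hz => mem_VZ_iff.1 hz
  lim := fun b => by
    obtain ⟨v, hv⟩ := tendsto_Sd3 h.bch (fitG h hc hk 3) b
    exact ⟨v, hv.comp tendsto_tz3⟩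
  real := fun c z _ => by
    ext b j
    rw [Matrix.map_apply, tz_conj]
    have := Sd_real h (fitG h hc hk c) (fun b hb m => realG h hc hRQ c hb m)
      (conj (tz c z)) b j
    rw [Complex.conj_conj] at this
    exact this.symm

end Vale.Agent.P030.H639.V2
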