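import Vale.Agent.P030.H639.V2a
import Vale.Agent.P030.H265.FrsM
import Vale.Agent.P030.H352.NGenR

/-!
# P030, route N: the patterns at the cusp circles for an arbitrary base change (helper639)

`RC c : List (List Cf)` = the cusp relation `A (E c T) A'` in the letter `T` (value
`T / (i π)`); `nTL (RC c)` = its inverse.  `up_G`, `dn_G` = the fields `up`, `dn` of `GPatR`.
-/

open Set Filter Topology Matrix
open scoped ComplexConjugate

namespace Vale.Agent.P030.H639.V2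

open Vale.Agent.P030.H124 Vale.Agent.P030.H265 Vale.Agent.P030.AR Vale.Agent.P030.H336
open Vale.Agent.P030.H352 Vale.Agent.P030.T Vale.Agent.P030.H580

/-- `T ↦ -T` in a matrix -/
def nTL (R : List (List Cf)) : List (List Cf) := R.map fun r => r.map nT

theorem get_nTL (R : List (List Cf)) (i j : ℕ) (T : ℂ) :
    cv T (H336.get cfO ((nTL R).getD i []) j) = cv (-T) (H336.get cfO (R.getD i []) j) := by
  have h0 : ∀ T, cv T cfO.zero = 0 := fun T => (ev_cv T).zero
  have e : (nTL R).getD i [] = (R.getD i []).map nT := by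
    rw [List.getD_eq_getElem?_getD, List.getD_eq_getElem?_getD, nTL, List.getElem?_map]
    cases h : R[i]? with
    | none => rfl
    | some x => rfl
  rw [e]
  generalize R.getD i [] = l
  unfold H336.get
  rw [List.getD_eq_getElem?_getD, List.getD_eq_getElem?_getD, List.getElem?_map]
  cases h : l[j]? with
  | none => exact (h0 T).trans (h0 (-T)).symm
  | some x => exact val_nT x _ _ _ T

variable {A A' Q : Matrix (Fin 8) (Fin 8) ℂ}

/-- the cusp relations in `Cf` -/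
def RelC (A A' : Matrix (Fin 8) (Fin 8) ℂ) (RC : Fin 4 → List (List Cf)) : Prop :=
  ∀ c T, ∀ i j : Fin 8,
    cv (T / (Complex.I * pc)) (H336.get cfO ((RC c).getD i []) j) = (A * E c T * A') i j

theorem RelC.neg {RC : Fin 4 → List (List Cf)} (h : RelC A A' RC) (c : Fin 4) (T : ℂ)
    (i j : Fin 8) :
    cv (T / (Complex.I * pc)) (H336.get cfO ((nTL (RC c)).getD i []) j) =
      (A * E c (-T) * A') i j := by
  rw [get_nTL, ← neg_div, h c (-T) i j]

theorem A'A (h : RCh A A' Q) : A * A' = 1 := mul_eq_one_comm.1 h.inv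

/-- the flat matrix near the cusp -/
theorem adm_cusp (h : RCh A A' Q) {X : Fin 8 → ℂ → Fin 8 → ℂ} (hX : YD X) {c : Fin 4} {z : ℂ}
    (hz : yz z ∈ RY c) : adm A Q (XM X z) =
      A * E c (TY c (yz z)) * A' * adm A Q (mx (glc c 0 (tz c z))) := by
  have hU : z ∈ Ud c := RY_sub_DY hz
  have h1 : XM X z = mx (glc c (TY c (yz z)) (tz c z)) := by
    funext i
    exact hX.cusp c i _ hz
  rw [h1, glc_E c _ (norm_tz_lt hU) (tY_ne hz)]
  change A * (E c _ * mx (glc c 0 (tz c z))) * Q = A * E c _ * A' * (A * mx (glc c 0 (tz c z)) * Q)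
  calc A * (E c (TY c (yz z)) * mx (glc c 0 (tz c z))) * Q
      = A * E c (TY c (yz z)) * (1 : Matrix (Fin 8) (Fin 8) ℂ) * mx (glc c 0 (tz c z)) * Q := by
        rw [Matrix.mul_one]
        simp only [Matrix.mul_assoc]
    _ = A * E c (TY c (yz z)) * (A' * A) * mx (glc c 0 (tz c z)) * Q := by rw [h.inv]
    _ = A * E c (TY c (yz z)) * A' * (A * mx (glc c 0 (tz c z)) * Q) := by
        simp only [Matrix.mul_assoc]

theorem adm_cusp' (h : RCh A A' Q) {X : Fin 8 → ℂ → Fin 8 → ℂ} (hX : YD X) {c : Fin 4} {z : ℂ}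
    (hz : yz z ∈ RY c) : adm A Q (mx (glc c 0 (tz c z))) =
      A * E c (-TY c (yz z)) * A' * adm A Q (XM X z) := by
  rw [adm_cusp h hX hz, ← Matrix.mul_assoc]
  have e : A * E c (-TY c (yz z)) * A' * (A * E c (TY c (yz z)) * A') = 1 := by
    calc A * E c (-TY c (yz z)) * A' * (A * E c (TY c (yz z)) * A')
        = A * E c (-TY c (yz z)) * (A' * A) * E c (TY c (yz z)) * A' := by
          simp only [Matrix.mul_assoc]
      _ = A * (E c (-TY c (yz z)) * E c (TY c (yz z))) * A' := by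
          rw [h.inv, Matrix.mul_one]; simp only [Matrix.mul_assoc]
      _ = 1 := by
          rw [← H639.E_add, neg_add_cancel, H639.E_zero, Matrix.mul_one, A'A h]
  rw [e, Matrix.one_mul]

variable {FD : Fin 4 → FrD Cf} {RQ RC : Fin 4 → List (List Cf)} {N : ℕ}

/-- the pattern at the cusp circle, both directions -/
def pC (fr : Fin N → FrD Cf) (kc : Fin 4 → Fin N) (FD : Fin 4 → FrD Cf)
    (RC : Fin 4 → List (List Cf)) (c : Fin 4) (b b' : Fin 8) : Prop :=
  patt cfO (fr (kc c)) (FD c) (RC c) b b' = true ∨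
    patt cfO (FD c) (fr (kc c)) (nTL (RC c)) b b' = true

/-- **field `up`** -/
theorem up_G (h : RCh A A' Q) (hc : chkD RQ FD = true) (hk : ∀ c, (FD c).kl = kDf c)
    (hRQ : ∀ q (i j : Fin 8), cv 0 (H336.get cfO ((RQ q).getD i []) j) =
      (A * cj (Rf q) * A') i j) (hRC : RelC A A' RC) (hD : ∀ c, noTF (FD c) = true)
    {X : Fin 8 → ℂ → Fin 8 → ℂ} (hX : YD X) (fr : Fin N → FrD Cf) (hkl : ∀ k, KL (fr k).kl)
    (hT : ∀ k, noTF (fr k) = true) (kc : Fin 4 → Fin N) (c : Fin 4) (z : ℂ)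
    (hz : yz z ∈ RY c) (hU : z ∈ (frsM (flatM_adm hX h) fr hkl).U (kc c)) (b b' : Fin 8)
    (hn : ¬ pC fr kc FD RC c b b') :
    ((frsM (flatM_adm hX h) fr hkl).S (kc c) z b ᵥ* ((discG h hc hk hRQ).S c z)⁻¹) b' = 0 := by
  set τ : ℂ := TY c (yz z) / (Complex.I * pc) with hτ
  change (frm (adm A Q (XM X z)) (toB cfO (cv 0) (fr (kc c))) b ᵥ*
    (frm (adm A Q (glc c 0 (tz c z))) (toB cfO (cv 0) (FD c)))⁻¹) b' = 0
  have h1 := kF_U (F := fr (kc c)) (z := z) hU
  have e1 : toB cfO (cv 0) (fr (kc c)) = toB cfO (cv τ) (fr (kc c)) := toB_noT (hT _) _ _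
  have e2 : toB cfO (cv 0) (FD c) = toB cfO (cv τ) (FD c) := toB_noT (hD _) _ _
  have k1 : cv 0 (fr (kc c)).kl.1 = cv τ (fr (kc c)).kl.1 := by
    rw [← toB_six_six cfO (cv 0), e1, toB_six_six]
  have k2 : cv 0 (fr (kc c)).kl.2 = cv τ (fr (kc c)).kl.2 := by
    rw [← toB_six_seven cfO (cv 0), e1, toB_six_seven]
  have h2 := H352.kF_ne h.bch (fitG h hc hk c) (norm_tz_lt (RY_sub_DY hz)) fun _ => tY_ne hz
  rw [BD, e2, toB_six_six, toB_six_seven] at h2
  rw [e1, e2]
  refine patt_sound (R := RC c) (ev_cv τ) (adap_adm h.bch (bup_glc c 0 _)) (fun i j => ?_)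
    (by rw [← k1, ← k2]; exact h1) h2 ?_
  · simp only [hτ, hRC c (TY c (yz z))]
    rw [adm_cusp h hX hz]
    rfl
  · unfold pC at hn
    push Not at hn
    simpa using hn.1

/-- **field `dn`** -/
theorem dn_G (h : RCh A A' Q) (hc : chkD RQ FD = true) (hk : ∀ c, (FD c).kl = kDf c)
    (hRQ : ∀ q (i j : Fin 8), cv 0 (H336.get cfO ((RQ q).getD i []) j) =
      (A * cj (Rf q) * A') i j) (hRC : RelC A A' RC) (hD : ∀ c, noTF (FD c) = true)
    {X : Fin 8 → ℂ → Fin 8 → ℂ} (hX : YD X) (fr : Fin N → FrD Cf) (hkl : ∀ k, KL (fr k).kl)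
    (hT : ∀ k, noTF (fr k) = true) (kc : Fin 4 → Fin N) (c : Fin 4) (z : ℂ)
    (hz : yz z ∈ RY c) (hU : z ∈ (frsM (flatM_adm hX h) fr hkl).U (kc c)) (b b' : Fin 8)
    (hn : ¬ pC fr kc FD RC c b b') :
    ((discG h hc hk hRQ).S c z b ᵥ* ((frsM (flatM_adm hX h) fr hkl).S (kc c) z)⁻¹) b' = 0 := by
  set τ : ℂ := TY c (yz z) / (Complex.I * pc) with hτ
  change (frm (adm A Q (glc c 0 (tz c z))) (toB cfO (cv 0) (FD c)) b ᵥ*
    (frm (adm A Q (XM X z)) (toB cfO (cv 0) (fr (kc c))))⁻¹) b' = 0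
  have h1 := kF_U (F := fr (kc c)) (z := z) hU
  have e1 : toB cfO (cv 0) (fr (kc c)) = toB cfO (cv τ) (fr (kc c)) := toB_noT (hT _) _ _
  have e2 : toB cfO (cv 0) (FD c) = toB cfO (cv τ) (FD c) := toB_noT (hD _) _ _
  have k1 : cv 0 (fr (kc c)).kl.1 = cv τ (fr (kc c)).kl.1 := by
    rw [← toB_six_six cfO (cv 0), e1, toB_six_six]
  have k2 : cv 0 (fr (kc c)).kl.2 = cv τ (fr (kc c)).kl.2 := by
    rw [← toB_six_seven cfO (cv 0), e1, toB_six_seven]
  have h2 := H352.kF_ne h.bch (fitG h hc hk c) (norm_tz_lt (RY_sub_DY hz)) fun _ => tY_ne hz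
  rw [BD, e2, toB_six_six, toB_six_seven] at h2
  rw [e1, e2]
  refine patt_sound (R := nTL (RC c)) (ev_cv τ) (adap_adm h.bch (bup_XM hX hU.1))
    (fun i j => ?_) h2 (by rw [← k1, ← k2]; exact h1) ?_
  · simp only [hτ, hRC.neg c (TY c (yz z))]
    have := adm_cusp' h hX hz
    exact congrFun (congrFun this i) j
  · unfold pC at hn
    push Not at hn
    simpa using hn.2

/-- **all patterns of the table** -/
noncomputable def gpatG (h : RCh A A' Q) (hc : chkD RQ FD = true) (hk : ∀ c, (FD c).kl = kDf c)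
    (hRQ : ∀ q (i j : Fin 8), cv 0 (H336.get cfO ((RQ q).getD i []) j) =
      (A * cj (Rf q) * A') i j) (hRC : RelC A A' RC) (hD : ∀ c, noTF (FD c) = true)
    {X : Fin 8 → ℂ → Fin 8 → ℂ} (hX : YD X) (fr : Fin N → FrD Cf) (hkl : ∀ k, KL (fr k).kl)
    (hT : ∀ k, noTF (fr k) = true) (kc : Fin 4 → Fin N) :
    GPatR (frsM (flatM_adm hX h) fr hkl) (discG h hc hk hRQ) where
  pI := fun k k' b c => patt cfO (fr k) (fr k') relI b c = true
  hI := fun k k' z hz hz' b c hn => hI_M (flatM_adm hX h) fr hkl k k' z hz hz' b c hn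
  pR := fun k q b c => patt cfO (fr k) (cjD (fr k)) (RQ q) b c = true
  hR := fun k q z hq hz hz' b c hn =>
    hR_M (flatM_adm hX h) fr hkl hRQ k q z hq hz hz' b c hn
  kc := kc
  pC := fun c b b' => pC fr kc FD RC c b b'
  up := fun c z hz hU b b' hn => up_G h hc hk hRQ hRC hD hX fr hkl hT kc c z hz hU b b' hn
  dn := fun c z hz hU b b' hn => dn_G h hc hk hRQ hRC hD hX fr hkl hT kc c z hz hU b b' hn

end Vale.Agent.P030.H639.V2
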